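import Vale.Agent.P088.R2.H657.W.Drift
import Vale.Agent.P088.R2.H644.W.Slot

/-!
# P088: bounds `O(g)` uniformly over families, and families of slots
-/

open Set Filter
open scoped ContDiff Topology

noncomputable section

namespace Vale.Agent.P088.R2.H657.W

open Vale.Agent.P088.R2.H644.Sy Vale.Agent.P088.R2.H961.GW

variable {α E ι κ : Type*} [NormedAddCommGroup E] [NormedSpace ℝ E] [Fintype ι] [Fintype κ]

/-- `x = O(g)`, uniformly over the family. -/
def Bo (U : α → Set E) (g x : α → E → ℝ) : Prop :=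
  ∃ C, 0 ≤ C ∧ ∀ a, ∀ z ∈ U a, |x a z| ≤ C * g a z

section bo

variable {U : α → Set E} {g g₁ g₂ x y : α → E → ℝ} {k : ℕ}

theorem So.bo (h : So U g k x) (hg : ∀ a, ∀ z ∈ U a, 0 ≤ g a z) : Bo U g x := by
  obtain ⟨C, hC⟩ := h.bd 0 (Nat.zero_le k)
  refine ⟨|C|, abs_nonneg C, fun a z hz => ?_⟩
  have h1 := hC a z hz
  simp only [norm_iteratedFDeriv_zero, pow_zero, mul_one, Real.norm_eq_abs] at h1
  exact h1.trans (mul_le_mul_of_nonneg_right (le_abs_self C) (hg a z hz))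

theorem Bo.congr (h : Bo U g x) (e : ∀ a, ∀ z ∈ U a, y a z = x a z) : Bo U g y := by
  obtain ⟨C, h0, hC⟩ := h
  exact ⟨C, h0, fun a z hz => by rw [e a z hz]; exact hC a z hz⟩

theorem Bo.wcongr (h : Bo U g x) (e : ∀ a, ∀ z ∈ U a, g₁ a z = g a z) : Bo U g₁ x := by
  obtain ⟨C, h0, hC⟩ := h
  exact ⟨C, h0, fun a z hz => by rw [e a z hz]; exact hC a z hz⟩

theorem Bo.le (h : Bo U g x) {A : ℝ} (hA : ∀ a, ∀ z ∈ U a, g a z ≤ A * g₁ a z)
    (h1 : ∀ a, ∀ z ∈ U a, 0 ≤ g₁ a z) : Bo U g₁ x := by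
  obtain ⟨C, h0, hC⟩ := h
  refine ⟨C * |A|, by positivity, fun a z hz => (hC a z hz).trans ?_⟩
  rw [mul_assoc]
  refine mul_le_mul_of_nonneg_left ((hA a z hz).trans ?_) h0
  exact mul_le_mul_of_nonneg_right (le_abs_self A) (h1 a z hz)

theorem Bo.le1 (h : Bo U g x) (hA : ∀ a, ∀ z ∈ U a, g a z ≤ g₁ a z)
    (h1 : ∀ a, ∀ z ∈ U a, 0 ≤ g₁ a z) : Bo U g₁ x :=
  h.le (A := 1) (fun a z hz => by rw [one_mul]; exact hA a z hz) h1

theorem Bo.add (h : Bo U g x) (h' : Bo U g y) : Bo U g fun a z => x a z + y a z := by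
  obtain ⟨C, h0, hC⟩ := h
  obtain ⟨C', h0', hC'⟩ := h'
  refine ⟨C + C', add_nonneg h0 h0', fun a z hz => (abs_add_le _ _).trans ?_⟩
  rw [add_mul]
  exact add_le_add (hC a z hz) (hC' a z hz)

theorem Bo.neg (h : Bo U g x) : Bo U g fun a z => -x a z := by
  obtain ⟨C, h0, hC⟩ := h
  exact ⟨C, h0, fun a z hz => by rw [abs_neg]; exact hC a z hz⟩

theorem Bo.sub (h : Bo U g x) (h' : Bo U g y) : Bo U g fun a z => x a z - y a z :=
  (h.add h'.neg).congr fun a z _ => by ring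

theorem Bo.mul (h : Bo U g₁ x) (h' : Bo U g₂ y) :
    Bo U (fun a z => g₁ a z * g₂ a z) fun a z => x a z * y a z := by
  obtain ⟨C, h0, hC⟩ := h
  obtain ⟨C', h0', hC'⟩ := h'
  refine ⟨C * C', mul_nonneg h0 h0', fun a z hz => ?_⟩
  rw [abs_mul]
  calc |x a z| * |y a z| ≤ (C * g₁ a z) * (C' * g₂ a z) :=
      mul_le_mul (hC a z hz) (hC' a z hz) (abs_nonneg _) ((abs_nonneg _).trans (hC a z hz))
    _ = _ := by ring

/-- Products with bounded functions. -/
theorem Bo.mul1 (h : Bo U (fun _ _ => 1) x) (h' : Bo U g y) : Bo U g fun a z => x a z * y a z :=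
  (h.mul h').wcongr fun _ _ _ => (one_mul _).symm

theorem Bo.cmul (c : ℝ) (h : Bo U g x) : Bo U g fun a z => c * x a z := by
  obtain ⟨C, h0, hC⟩ := h
  refine ⟨|c| * C, by positivity, fun a z hz => ?_⟩
  rw [abs_mul, mul_assoc]
  exact mul_le_mul_of_nonneg_left (hC a z hz) (abs_nonneg c)

theorem Bo.zero (U : α → Set E) (g : α → E → ℝ) : Bo U g fun _ _ => 0 :=
  ⟨0, le_rfl, fun a z _ => by simp⟩

theorem Bo.const (c : ℝ) : Bo U (fun _ _ => 1) fun _ _ => c :=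
  ⟨|c|, abs_nonneg c, fun a z _ => by simp⟩

theorem Bo.sum {J : Type*} (S : Finset J) {x : J → α → E → ℝ} (h : ∀ j ∈ S, Bo U g (x j)) :
    Bo U g fun a z => ∑ j ∈ S, x j a z := by
  classical
  induction S using Finset.induction_on with
  | empty => exact (Bo.zero U g).congr fun a z _ => by simp
  | insert j S hj ih =>
    refine ((h j (Finset.mem_insert_self j S)).add
      (ih fun i hi => h i (Finset.mem_insert_of_mem hi))).congr fun a z _ => ?_
    rw [Finset.sum_insert hj]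

theorem Bo.all {J : Type*} [Finite J] {x : J → α → E → ℝ} (h : ∀ j, Bo U g (x j))
    (hg : ∀ a, ∀ z ∈ U a, 0 ≤ g a z) :
    ∃ C, 0 ≤ C ∧ ∀ j a, ∀ z ∈ U a, |x j a z| ≤ C * g a z := by
  classical
  haveI := Fintype.ofFinite J
  choose C h0 hC using h
  refine ⟨∑ j, C j, Finset.sum_nonneg fun j _ => h0 j, fun j a z hz => (hC j a z hz).trans ?_⟩
  exact mul_le_mul_of_nonneg_right
    (Finset.single_le_sum (fun j _ => h0 j) (Finset.mem_univ j)) (hg a z hz)

/-- The product of approximations: `x = x₀ + O(g)`, `y` bounded. -/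
theorem Bo.mul_sub {x₀ : α → E → ℝ} (h : Bo U g fun a z => x a z - x₀ a z)
    (hy : Bo U (fun _ _ => 1) y) : Bo U g fun a z => y a z * x a z - y a z * x₀ a z :=
  (hy.mul1 h).congr fun a z _ => by ring

theorem Bo.sum_sub {J : Type*} (S : Finset J) {x x₀ : J → α → E → ℝ}
    (h : ∀ j ∈ S, Bo U g fun a z => x j a z - x₀ j a z) :
    Bo U g fun a z => (∑ j ∈ S, x j a z) - ∑ j ∈ S, x₀ j a z :=
  (Bo.sum S h).congr fun a z _ => by rw [Finset.sum_sub_distrib]

end bo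

/-! ## Families of slots -/

section fs

variable {σ : α → Sl E ι} {e : ι → E} {U : α → Set E} {Rs r G g : α → E → ℝ} {k l : ℕ}

/-- The coefficients. -/
abbrev sc (σ : α → Sl E ι) (i j : ι) (a : α) : E → ℝ := (σ a).s i j

omit [Fintype ι] in
theorem FS.dd_eq (s : FS σ e U Rs k) (a : α) (i : ι) (f : E → ℝ) :
    (σ a).D i f = dd (e i) f := funext fun z => s.D_eq a i f z

/-- `Λ` in divergence form. -/
theorem FS.Lb_eq (s : FS σ e U Rs k) (f : α → E → ℝ) (a : α) (z : E) : (σ a).Λ (f a) z = Lb (sc σ) e f a z := by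
  unfold Lb Lm Dr Sl.Λ
  rw [← Finset.sum_add_distrib]
  refine Finset.sum_congr rfl fun i _ => ?_
  rw [← Finset.sum_add_distrib]
  refine Finset.sum_congr rfl fun j _ => ?_
  rw [s.k0, zero_mul, add_zero, FS.dd_eq s, FS.dd_eq s, FS.dd_eq s]

end fs

end Vale.Agent.P088.R2.H657.W
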