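import Vale.Agent.P088.R2.H644.W.Wei

/-!
# P088: the chain rule for `F(z) = Ψ(φ(z), r(z))` up to order four, uniformly over families

`D a i j` are the partial derivatives `∂_φ^i ∂_r^j Ψ_a`, bounded by `G` for `i + j ≥ 1`; `D φ` is a
symbol of order `0` and `r` a symbol of order `1` at the scale `r`.  The derivatives of `F` of order
`3` and `4` are `D_ij φ_v … r_w …` up to symbols of size `G / r`.
-/

open Set Filter
open scoped ContDiff Topology

noncomputable section

namespace Vale.Agent.P088.R2.H657.W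

open Vale.Agent.P088.R2.H644.Sy

variable {α E : Type*} [NormedAddCommGroup E] [NormedSpace ℝ E]

/-- The directional derivative. -/
def dd (v : E) (f : E → ℝ) (z : E) : ℝ := fderiv ℝ f z v

/-- The data of the chain rule. -/
structure Fc (U : α → Set E) (φ r G : α → E → ℝ) (D : α → ℕ → ℕ → ℝ → ℝ → ℝ) (k : ℕ) :
    Prop where
  op : ∀ a, IsOpen (U a)
  r0 : ∃ c > 0, ∀ a, ∀ z ∈ U a, c ≤ r a z
  sφ : ∀ a, ContDiffOn ℝ ∞ (φ a) (U a)
  dφ : Sf U r (fun _ _ => 1) (k + 3) (fun a => fderiv ℝ (φ a))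
  dr : Sf U r r (k + 4) r
  G0 : ∀ a, ∀ z ∈ U a, 0 < G a z
  sD : ∀ a i j, ContDiffOn ℝ ∞ (fun z => D a i j (φ a z) (r a z)) (U a)
  dD : ∀ a i j, ∀ z ∈ U a, HasFDerivAt (fun p : ℝ × ℝ => D a i j p.1 p.2)
    (D a (i + 1) j (φ a z) (r a z) • ContinuousLinearMap.fst ℝ ℝ ℝ +
      D a i (j + 1) (φ a z) (r a z) • ContinuousLinearMap.snd ℝ ℝ ℝ) (φ a z, r a z)
  bD : ∀ i j, 1 ≤ i + j → ∃ C, ∀ a, ∀ z ∈ U a, |D a i j (φ a z) (r a z)| ≤ C * G a z

section gen

variable {U : α → Set E} {g g₁ g₂ : α → E → ℝ} {k : ℕ} {x y w : α → E → ℝ}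

/-- Symbols at the scale one. -/
abbrev So (U : α → Set E) (g : α → E → ℝ) (k : ℕ) (f : α → E → ℝ) : Prop :=
  Sf U (fun _ _ => (1 : ℝ)) g k f

theorem So.dd (hU : ∀ a, IsOpen (U a)) (h : So U g (k + 1) x) (v : E) :
    So U g k fun a => dd v (x a) := by
  have h1 := (h.fd hU).clm hU (ContinuousLinearMap.apply ℝ ℝ v)
  exact (h1.congr hU fun a z _ => rfl).wcongr fun a z _ => by simp

theorem dd_congr (hU : ∀ a, IsOpen (U a)) {f f' : α → E → ℝ} (v : E)
    (e : ∀ a, ∀ z ∈ U a, f a z = f' a z) {a : α} {z : E} (hz : z ∈ U a) :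
    W.dd v (f a) z = W.dd v (f' a) z := by
  have h : f a =ᶠ[𝓝 z] f' a := by
    filter_upwards [(hU a).mem_nhds hz] with p hp using e a p hp
  unfold W.dd
  rw [h.fderiv_eq]

theorem dfa (hU : ∀ a, IsOpen (U a)) (h : ∀ a, ContDiffOn ℝ ∞ (x a) (U a)) {a : α} {z : E}
    (hz : z ∈ U a) : DifferentiableAt ℝ (x a) z :=
  (((h a) z hz).contDiffAt ((hU a).mem_nhds hz)).differentiableAt (by simp)

theorem dd_add {f f' : E → ℝ} {z : E} (v : E) (h : DifferentiableAt ℝ f z)
    (h' : DifferentiableAt ℝ f' z) :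
    W.dd v (fun z => f z + f' z) z = W.dd v f z + W.dd v f' z := by
  have e : HasFDerivAt (fun z => f z + f' z) (fderiv ℝ f z + fderiv ℝ f' z) z :=
    h.hasFDerivAt.add h'.hasFDerivAt
  unfold W.dd
  rw [e.fderiv]; rfl

theorem dd_sub {f f' : E → ℝ} {z : E} (v : E) (h : DifferentiableAt ℝ f z)
    (h' : DifferentiableAt ℝ f' z) :
    W.dd v (fun z => f z - f' z) z = W.dd v f z - W.dd v f' z := by
  have e : HasFDerivAt (fun z => f z - f' z) (fderiv ℝ f z - fderiv ℝ f' z) z :=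
    h.hasFDerivAt.sub h'.hasFDerivAt
  unfold W.dd
  rw [e.fderiv]; rfl

theorem dd_mul {f f' : E → ℝ} {z : E} (v : E) (h : DifferentiableAt ℝ f z)
    (h' : DifferentiableAt ℝ f' z) :
    W.dd v (fun z => f z * f' z) z = W.dd v f z * f' z + f z * W.dd v f' z := by
  have e : HasFDerivAt (fun z => f z * f' z) (f z • fderiv ℝ f' z + f' z • fderiv ℝ f z) z :=
    h.hasFDerivAt.mul h'.hasFDerivAt
  unfold W.dd
  rw [e.fderiv]
  simp only [_root_.add_apply, _root_.smul_apply, smul_eq_mul]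
  ring

/-- Products of symbols. -/
theorem So.mul (hU : ∀ a, IsOpen (U a)) (h : So U g₁ k x) (h' : So U g₂ k y) :
    So U (fun a z => g₁ a z * g₂ a z) k fun a z => x a z * y a z := Sf.mul hU h h'

theorem So.le (h : So U g k x) (h0 : ∀ a, ∀ z ∈ U a, 0 ≤ g a z) {A : ℝ}
    (hA : ∀ a, ∀ z ∈ U a, g a z ≤ A * g₁ a z) : So U g₁ k x :=
  Sf.mono h (fun _ _ _ => one_pos) h0 hA

end gen

section chain

variable {U : α → Set E} {φ r G : α → E → ℝ} {D : α → ℕ → ℕ → ℝ → ℝ → ℝ} {k : ℕ}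

/-- `D_ij(φ, r)`. -/
def Fd (D : α → ℕ → ℕ → ℝ → ℝ → ℝ) (φ r : α → E → ℝ) (i j : ℕ) (a : α) (z : E) : ℝ :=
  D a i j (φ a z) (r a z)

/-- Factors: bounded symbols with derivatives `O(1/r)`. -/
structure Xc (U : α → Set E) (r : α → E → ℝ) (k : ℕ) (x : α → E → ℝ) : Prop where
  s : So U (fun _ _ => 1) (k + 1) x
  d : ∀ t, So U (fun a z => (r a z)⁻¹) k fun a => dd t (x a)

namespace Fc

theorem rp (h : Fc U φ r G D k) {a : α} {z : E} (hz : z ∈ U a) : 0 < r a z := by
  obtain ⟨c, hc, hr⟩ := h.r0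
  exact hc.trans_le (hr a z hz)

/-- From the scale `r` to the scale `1`. -/
theorem sc (h : Fc U φ r G D k) {F : Type*} [NormedAddCommGroup F] [NormedSpace ℝ F]
    {g : α → E → ℝ} (hg : ∀ a, ∀ z ∈ U a, 0 ≤ g a z) {l : ℕ} {x : α → E → F} (hx : Sf U r g l x) :
    Sf U (fun _ _ => (1 : ℝ)) g l x := by
  obtain ⟨c, hc, hr⟩ := h.r0
  refine hx.mono_ρ (fun a z hz => h.rp hz) (fun _ _ _ => one_pos) hg (A := c⁻¹) fun a z hz => ?_
  rw [← div_eq_inv_mul, one_le_div₀ hc]
  exact hr a z hz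

theorem xc_of (h : Fc U φ r G D k) {l : ℕ} {x : α → E → ℝ} (hx : Sf U r (fun _ _ => 1) (l + 1) x) :
    Xc U r l x where
  s := h.sc (fun _ _ _ => zero_le_one) hx
  d t := by
    have h1 := (hx.fd h.op).clm h.op (ContinuousLinearMap.apply ℝ ℝ t)
    have h2 : Sf U r (fun a z => (r a z)⁻¹) l fun a => dd t (x a) :=
      (h1.congr h.op fun a z _ => rfl).wcongr fun a z _ => by simp
    exact h.sc (fun a z hz => inv_nonneg.2 (h.rp hz).le) h2

theorem xφ (h : Fc U φ r G D k) (v : E) : Xc U r (k + 2) fun a => dd v (φ a) := by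
  refine h.xc_of ?_
  exact (h.dφ.clm h.op (ContinuousLinearMap.apply ℝ ℝ v)).congr h.op fun a z _ => rfl

theorem xr (h : Fc U φ r G D k) (v : E) : Xc U r (k + 2) fun a => dd v (r a) := by
  refine h.xc_of ?_
  have h1 : Sf U r (fun a z => r a z * (r a z)⁻¹) (k + 3) (fun a => fderiv ℝ (r a)) := h.dr.fd h.op
  refine ((h1.clm h.op (ContinuousLinearMap.apply ℝ ℝ v)).congr h.op fun a z _ => rfl).wcongr
    fun a z hz => ?_
  exact (mul_inv_cancel₀ (h.rp hz).ne').symm

/-- The chain rule. -/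
theorem fdF (h : Fc U φ r G D k) (i j : ℕ) {a : α} {z : E} (hz : z ∈ U a) :
    HasFDerivAt (Fd D φ r i j a)
      (Fd D φ r (i + 1) j a z • fderiv ℝ (φ a) z + Fd D φ r i (j + 1) a z • fderiv ℝ (r a) z) z := by
  have d1 := (dfa h.op h.sφ hz).hasFDerivAt
  have d2 := (dfa h.op h.dr.sm hz).hasFDerivAt
  have h1 := (h.dD a i j z hz).comp z (d1.prodMk d2)
  refine h1.congr_fderiv ?_
  refine ContinuousLinearMap.ext fun v => ?_
  simp [Fd]

theorem ddF (h : Fc U φ r G D k) (i j : ℕ) (v : E) {a : α} {z : E} (hz : z ∈ U a) :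
    dd v (Fd D φ r i j a) z =
      Fd D φ r (i + 1) j a z * dd v (φ a) z + Fd D φ r i (j + 1) a z * dd v (r a) z := by
  unfold dd
  rw [(h.fdF i j hz).fderiv]
  rfl

/-- All `D_ij(φ, r)`, `i + j ≥ 1`, are symbols of size `G` at the scale `1`. -/
theorem sF (h : Fc U φ r G D k) : ∀ l ≤ k + 3, ∀ i j, 1 ≤ i + j → So U G l (Fd D φ r i j) := by
  intro l
  induction l with
  | zero =>
    intro _ i j hij
    refine ⟨fun a => h.sD a i j, fun m hm => ?_⟩
    obtain rfl : m = 0 := Nat.le_zero.1 hm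
    obtain ⟨C, hC⟩ := h.bD i j hij
    exact ⟨C, fun a z hz => by simpa [Fd] using hC a z hz⟩
  | succ l ih =>
    intro hl i j hij
    refine Sf.succ (fun a => h.sD a i j) ?_ ?_
    · obtain ⟨C, hC⟩ := h.bD i j hij
      exact ⟨C, fun a z hz => hC a z hz⟩
    · have hl' : l ≤ k + 3 := Nat.le_of_succ_le hl
      have e1 : Sf U (fun _ _ => (1 : ℝ)) (fun _ _ => 1) l (fun a => fderiv ℝ (φ a)) :=
        h.sc (fun _ _ _ => zero_le_one) (h.dφ.mono_k hl')
      have e2 : Sf U (fun _ _ => (1 : ℝ)) (fun _ _ => 1) l (fun a => fderiv ℝ (r a)) := by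
        refine h.sc (fun _ _ _ => zero_le_one) ?_
        exact ((h.dr.fd h.op).mono_k hl').wcongr fun a z hz =>
          (mul_inv_cancel₀ (h.rp hz).ne').symm
      have h1 := (ih hl' (i + 1) j (by omega)).smul h.op e1
      have h2 := (ih hl' i (j + 1) (by omega)).smul h.op e2
      exact ((h1.add h.op h2).congr h.op fun a z hz => (h.fdF i j hz).fderiv).wcongr
        fun a z _ => by simp

end Fc

/-! ## Iterated derivatives -/

/-- The main part of the iterated derivative of `D_ij(φ, r)` in the directions `vs`. -/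
def Mn (D : α → ℕ → ℕ → ℝ → ℝ → ℝ) (φ r : α → E → ℝ) : List E → ℕ → ℕ → α → E → ℝ
  | [], i, j => Fd D φ r i j
  | v :: vs, i, j => fun a z =>
    dd v (φ a) z * Mn D φ r vs (i + 1) j a z + dd v (r a) z * Mn D φ r vs i (j + 1) a z

/-- Iterated directional derivatives. -/
def it : List E → (E → ℝ) → E → ℝ
  | [], f => f
  | v :: vs, f => dd v (it vs f)

namespace Fc

/-- The size of the main parts. -/
theorem sM (h : Fc U φ r G D k) (vs : List E) : ∀ i j, 1 ≤ i + j + vs.length →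
    So U G (k + 3) (Mn D φ r vs i j) := by
  induction vs with
  | nil =>
    intro i j hij
    exact h.sF (k + 3) le_rfl i j (by simpa using hij)
  | cons v vs ih =>
    intro i j hij
    have x1 := (h.xφ v).s
    have x2 := (h.xr v).s
    have h1 := x1.mul h.op (ih (i + 1) j (by omega))
    have h2 := x2.mul h.op (ih i (j + 1) (by omega))
    exact (Sf.add h.op h1 h2).wcongr fun a z _ => by simp

/-- The derivative of the main part. -/
theorem dM (h : Fc U φ r G D k) (t : E) (vs : List E) : ∀ i j, 1 ≤ i + j + vs.length →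
    So U (fun a z => G a z * (r a z)⁻¹) (k + 2) fun a z => dd t (Mn D φ r vs i j a) z -
      (dd t (φ a) z * Mn D φ r vs (i + 1) j a z + dd t (r a) z * Mn D φ r vs i (j + 1) a z) := by
  induction vs with
  | nil =>
    intro i j _
    refine (Sf.zero U (fun _ _ => (1 : ℝ)) (fun a z => G a z * (r a z)⁻¹) (k + 2)).congr h.op
      fun a z hz => ?_
    have e := h.ddF i j t hz
    unfold Mn
    rw [e]; ring
  | cons v vs ih =>
    intro i j hij
    have x1 := h.xφ v
    have x2 := h.xr v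
    have m1 := h.sM vs (i + 1) j (by omega)
    have m2 := h.sM vs i (j + 1) (by omega)
    have m1' : So U G (k + 2) (Mn D φ r vs (i + 1) j) := m1.mono_k (by omega)
    have m2' : So U G (k + 2) (Mn D φ r vs i (j + 1)) := m2.mono_k (by omega)
    have a1 := (x1.d t).mul h.op m1'
    have a2 := (x2.d t).mul h.op m2'
    have b1 := (x1.s.mono_k (by omega : k + 2 ≤ k + 2 + 1)).mul h.op (ih (i + 1) j (by omega))
    have b2 := (x2.s.mono_k (by omega : k + 2 ≤ k + 2 + 1)).mul h.op (ih i (j + 1) (by omega))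
    have a1' : So U (fun a z => G a z * (r a z)⁻¹) (k + 2) _ := a1.wcongr fun a z _ => by ring
    have a2' : So U (fun a z => G a z * (r a z)⁻¹) (k + 2) _ := a2.wcongr fun a z _ => by ring
    have b1' : So U (fun a z => G a z * (r a z)⁻¹) (k + 2) _ := b1.wcongr fun a z _ => by ring
    have b2' : So U (fun a z => G a z * (r a z)⁻¹) (k + 2) _ := b2.wcongr fun a z _ => by ring
    refine (Sf.add h.op (Sf.add h.op a1' a2') (Sf.add h.op b1' b2')).congr h.op fun a z hz => ?_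
    have d1 := dfa h.op x1.s.sm hz
    have d2 := dfa h.op x2.s.sm hz
    have e1 := dfa h.op m1.sm hz
    have e2 := dfa h.op m2.sm hz
    have f1 : DifferentiableAt ℝ (fun z => dd v (φ a) z * Mn D φ r vs (i + 1) j a z) z := d1.mul e1
    have f2 : DifferentiableAt ℝ (fun z => dd v (r a) z * Mn D φ r vs i (j + 1) a z) z := d2.mul e2
    have g0 : dd t (Mn D φ r (v :: vs) i j a) z =
        dd t (fun z => dd v (φ a) z * Mn D φ r vs (i + 1) j a z +
          dd v (r a) z * Mn D φ r vs i (j + 1) a z) z := rfl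
    rw [g0, dd_add t f1 f2, dd_mul t d1 e1, dd_mul t d2 e2]
    have g1 : Mn D φ r (v :: vs) (i + 1) j a z = dd v (φ a) z * Mn D φ r vs (i + 1 + 1) j a z +
      dd v (r a) z * Mn D φ r vs (i + 1) (j + 1) a z := rfl
    have g2 : Mn D φ r (v :: vs) i (j + 1) a z = dd v (φ a) z * Mn D φ r vs (i + 1) (j + 1) a z +
      dd v (r a) z * Mn D φ r vs i (j + 1 + 1) a z := rfl
    rw [g1, g2]
    ring

/-- The iterated derivatives are smooth. -/
theorem sit (h : Fc U φ r G D k) (vs : List E) (a : α) :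
    ContDiffOn ℝ ∞ (it vs (Fd D φ r 0 0 a)) (U a) := by
  induction vs with
  | nil => exact h.sD a 0 0
  | cons v vs ih =>
    have h1 : ContDiffOn ℝ ∞ (fderiv ℝ (it vs (Fd D φ r 0 0 a))) (U a) :=
      ih.fderiv_of_isOpen (h.op a) (by norm_num)
    exact h1.clm_apply contDiffOn_const

/-- **The iterated derivatives of `F = Ψ(φ, r)` up to symbols of size `G / r`.** -/
theorem main (h : Fc U φ r G D k) (vs : List E) : ∀ v : E, ∀ l, l + vs.length ≤ k + 2 →
    So U (fun a z => G a z * (r a z)⁻¹) l fun a z => it (vs ++ [v]) (Fd D φ r 0 0 a) z -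
      Mn D φ r (vs ++ [v]) 0 0 a z := by
  induction vs with
  | nil =>
    intro v l _
    refine (Sf.zero U (fun _ _ => (1 : ℝ)) (fun a z => G a z * (r a z)⁻¹) l).congr h.op
      fun a z hz => ?_
    have e := h.ddF 0 0 v hz
    have e1 : it ([] ++ [v]) (Fd D φ r 0 0 a) z = dd v (Fd D φ r 0 0 a) z := rfl
    have e2 : Mn D φ r ([] ++ [v]) 0 0 a z = dd v (φ a) z * Fd D φ r (0 + 1) 0 a z +
      dd v (r a) z * Fd D φ r 0 (0 + 1) a z := rfl
    rw [e1, e2, e]; ring
  | cons t vs ih =>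
    intro v l hl
    simp only [List.length_cons] at hl
    have h1 := ih v (l + 1) (by omega)
    have h2 := h1.dd h.op t
    have h3 := h.dM t (vs ++ [v]) 0 0 (by simp)
    have h3' : So U (fun a z => G a z * (r a z)⁻¹) l _ := h3.mono_k (by omega)
    refine (Sf.add h.op h2 h3').congr h.op fun a z hz => ?_
    have s1 := dfa h.op (fun a => h.sit (vs ++ [v]) a) hz
    have s2 := dfa h.op (h.sM (vs ++ [v]) 0 0 (by simp)).sm hz
    have e0 := dd_sub t s1 s2
    have e1 : it (t :: vs ++ [v]) (Fd D φ r 0 0 a) z =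
      dd t (it (vs ++ [v]) (Fd D φ r 0 0 a)) z := rfl
    have e2 : Mn D φ r (t :: vs ++ [v]) 0 0 a z =
      dd t (φ a) z * Mn D φ r (vs ++ [v]) (0 + 1) 0 a z +
        dd t (r a) z * Mn D φ r (vs ++ [v]) 0 (0 + 1) a z := rfl
    rw [e1, e2, e0]
    ring

/-- The exact second derivatives. -/
theorem dd2 (h : Fc U φ r G D k) (v w : E) {a : α} {z : E} (hz : z ∈ U a) :
    dd w (dd v (Fd D φ r 0 0 a)) z = Mn D φ r [w, v] 0 0 a z +
      (Fd D φ r 1 0 a z * dd w (dd v (φ a)) z + Fd D φ r 0 1 a z * dd w (dd v (r a)) z) := by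
  have e0 : dd w (dd v (Fd D φ r 0 0 a)) z = dd w (fun z =>
      Fd D φ r 1 0 a z * dd v (φ a) z + Fd D φ r 0 1 a z * dd v (r a) z) z :=
    dd_congr h.op (f := fun a => dd v (Fd D φ r 0 0 a)) (f' := fun a z =>
      Fd D φ r 1 0 a z * dd v (φ a) z + Fd D φ r 0 1 a z * dd v (r a) z) w
      (fun a z hz => h.ddF 0 0 v hz) hz
  have d1 := dfa h.op (h.xφ v).s.sm hz
  have d2 := dfa h.op (h.xr v).s.sm hz
  have e1 := dfa h.op (x := Fd D φ r 1 0) (fun a => h.sD a 1 0) hz
  have e2 := dfa h.op (x := Fd D φ r 0 1) (fun a => h.sD a 0 1) hz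
  have f1 : DifferentiableAt ℝ (fun z => Fd D φ r 1 0 a z * dd v (φ a) z) z := e1.mul d1
  have f2 : DifferentiableAt ℝ (fun z => Fd D φ r 0 1 a z * dd v (r a) z) z := e2.mul d2
  rw [e0, dd_add w f1 f2, dd_mul w e1 d1, dd_mul w e2 d2, h.ddF 1 0 w hz, h.ddF 0 1 w hz]
  have g : Mn D φ r [w, v] 0 0 a z =
    dd w (φ a) z * (dd v (φ a) z * Fd D φ r 2 0 a z + dd v (r a) z * Fd D φ r 1 1 a z) +
    dd w (r a) z * (dd v (φ a) z * Fd D φ r 1 1 a z + dd v (r a) z * Fd D φ r 0 2 a z) := rfl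
  rw [g]
  norm_num
  ring

end Fc

/-! ## Rank one values -/

/-- The product of the covector `m = dφ + w dr` on the directions. -/
def Pm (φ r : α → E → ℝ) (w : ℝ) (a : α) (z : E) : List E → ℝ
  | [] => 1
  | v :: vs => (dd v (φ a) z + w * dd v (r a) z) * Pm φ r w a z vs

/-- The product of the bounds. -/
def Pb (φ r : α → E → ℝ) (a : α) (z : E) : List E → ℝ
  | [] => 1
  | v :: vs => (|dd v (φ a) z| + |dd v (r a) z|) * Pb φ r a z vs

theorem Pb_nonneg (a : α) (z : E) (vs : List E) : 0 ≤ Pb φ r a z vs := by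
  induction vs with
  | nil => exact zero_le_one
  | cons v vs ih => exact mul_nonneg (by positivity) ih

/-- If the `D_ij` with `i + j = n` are `H w^j` up to `e`, the main part is `H m(v₁) … m(v_n)`. -/
theorem Mn_rank {a : α} {z : E} {H w e : ℝ} (vs : List E) : ∀ i j,
    (∀ p q, p + q = i + j + vs.length → |Fd D φ r p q a z - H * w ^ q| ≤ e) →
    |Mn D φ r vs i j a z - H * w ^ j * Pm φ r w a z vs| ≤ e * Pb φ r a z vs := by
  induction vs with
  | nil =>
    intro i j h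
    have := h i j (by simp)
    simpa [Mn, Pm, Pb] using this
  | cons v vs ih =>
    intro i j h
    have h1 := ih (i + 1) j fun p q hpq => h p q (by simp only [List.length_cons]; omega)
    have h2 := ih i (j + 1) fun p q hpq => h p q (by simp only [List.length_cons]; omega)
    have e1 : Mn D φ r (v :: vs) i j a z - H * w ^ j * Pm φ r w a z (v :: vs) =
        dd v (φ a) z * (Mn D φ r vs (i + 1) j a z - H * w ^ j * Pm φ r w a z vs) +
        dd v (r a) z * (Mn D φ r vs i (j + 1) a z - H * w ^ (j + 1) * Pm φ r w a z vs) := by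
      have g1 : Mn D φ r (v :: vs) i j a z = dd v (φ a) z * Mn D φ r vs (i + 1) j a z +
        dd v (r a) z * Mn D φ r vs i (j + 1) a z := rfl
      have g2 : Pm φ r w a z (v :: vs) =
        (dd v (φ a) z + w * dd v (r a) z) * Pm φ r w a z vs := rfl
      rw [g1, g2, pow_succ]; ring
    rw [e1]
    have e2 : Pb φ r a z (v :: vs) =
      (|dd v (φ a) z| + |dd v (r a) z|) * Pb φ r a z vs := rfl
    rw [e2]
    refine (abs_add_le _ _).trans ?_
    rw [abs_mul, abs_mul]
    have h3 := mul_le_mul_of_nonneg_left h1 (abs_nonneg (dd v (φ a) z))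
    have h4 := mul_le_mul_of_nonneg_left h2 (abs_nonneg (dd v (r a) z))
    linarith

end chain

end Vale.Agent.P088.R2.H657.W
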