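import Vale.Agent.P088.R2.H657.W.Far4
import Vale.Agent.P088.R2.H747.S.Zn

/-!
# P088: the pointwise total inequality in the far zone, for the family of weights

`W = W₀ + Ψ(φ, r)`: certificate, rank one structure, `g² ≤ ε m (N + G)²`: the hypothesis of the
weighted estimate of zone A.
-/

open Set Filter
open scoped ContDiff Topology

noncomputable section

namespace Vale.Agent.P088.R2.H657.W

open Vale.Agent.P088.R2.H644.Sy Vale.Agent.P088.R2.H961.GW Vale.Agent.P088.R2.H644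
  Vale.Agent.P088.R2.H960.W

variable {α E ι κ : Type*} [NormedAddCommGroup E] [NormedSpace ℝ E] [Fintype ι] [Fintype κ]

/-- The arithmetic of the closure. -/
theorem close_alg {m C1 C Kc η F0 ε NG g E0 v cv Zs : ℝ} (hm : 0 ≤ m) (hC : 0 ≤ C) (hC1 : 0 ≤ C1)
    (hK : 0 ≤ Kc) (hF : 0 ≤ F0) (hε : 2 * (C1 + 14 * C * (4 + 2 * Kc)) * ε ≤ η)
    (hε0 : 0 ≤ ε) (hE0 : 0 ≤ E0) (hEm : E0 ≤ Kc * m) (h1 : 1 ≤ ε * F0)
    (hg : g ^ 2 ≤ ε * (m * F0)) (hE : E0 ≤ ε * F0) (hv : NG * v ≤ ε * (m * F0))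
    (hcv : cv ≤ ε * (m * F0)) (hZ : Zs = (|g| + E0) ^ 2 + NG * v + cv) :
    2 * (m * C1 + 14 * (C * Zs)) ≤ η * (m * F0) := by
  have q0 : 0 ≤ m * F0 := by positivity
  have a1 : E0 ^ 2 ≤ Kc * (ε * (m * F0)) := by
    calc E0 ^ 2 = E0 * E0 := by ring
      _ ≤ (Kc * m) * (ε * F0) := mul_le_mul hEm hE hE0 (by positivity)
      _ = _ := by ring
  have a2 : (|g| + E0) ^ 2 ≤ 2 * (ε * (m * F0)) + 2 * (Kc * (ε * (m * F0))) := by
    have : (|g| + E0) ^ 2 ≤ 2 * g ^ 2 + 2 * E0 ^ 2 := by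
      rw [← sq_abs g]; nlinarith [sq_nonneg (|g| - E0)]
    linarith
  have a3 : Zs ≤ (4 + 2 * Kc) * (ε * (m * F0)) := by rw [hZ]; linarith
  have a4 : m * C1 ≤ C1 * (ε * (m * F0)) := by
    calc m * C1 = (m * C1) * 1 := by ring
      _ ≤ (m * C1) * (ε * F0) := mul_le_mul_of_nonneg_left h1 (by positivity)
      _ = _ := by ring
  have a5 : C * Zs ≤ C * ((4 + 2 * Kc) * (ε * (m * F0))) := mul_le_mul_of_nonneg_left a3 hC
  have a6 : 2 * (C1 + 14 * C * (4 + 2 * Kc)) * ε * (m * F0) ≤ η * (m * F0) :=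
    mul_le_mul_of_nonneg_right hε q0
  linarith

section fam

variable {U : α → Set E} {φ r G Nn eu Rs g om lam lam2 V cv : α → E → ℝ}
  {D : α → ℕ → ℕ → ℝ → ℝ → ℝ} {Wu : α → E → ℝ} {σ : α → Sl E ι} {e : ι → E}
  {τ : α → Sl E κ} {e' : κ → E}

/-- The coefficients of the Weyl terms from `|c| |DW| = O(E₀)`. -/
theorem Wt.qcb (w : Wt U φ r G Nn eu Rs D Wu) (s : Fs1 σ e U r Rs) {c : α → ι → E → ℝ}
    (hc : ∀ i l, Bo U (E0 r G eu) fun a z => c a i z * (σ a).D l (Ww D φ r Wu a) z) (i l : ι) :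
    Bo U (E0 r G eu) fun a z => qC (σ a) (c a) (Ww D φ r Wu a) i l z := by
  have h1 : Bo U (E0 r G eu) fun a z =>
      sc σ i l a z * ∑ k, c a k z * (σ a).D k (Ww D φ r Wu a) z :=
    (s.sb w.fc i l).mul1 (Bo.sum _ fun k _ => hc k k)
  have h2 : Bo U (E0 r G eu) fun a z =>
      ∑ k, sc σ k l a z * (c a i z * (σ a).D k (Ww D φ r Wu a) z) :=
    Bo.sum _ fun k _ => (s.sb w.fc k l).mul1 (hc i k)
  have h3 : Bo U (E0 r G eu) fun a z =>
      ∑ k, sc σ k i a z * (c a l z * (σ a).D k (Ww D φ r Wu a) z) :=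
    Bo.sum _ fun k _ => (s.sb w.fc k i).mul1 (hc l k)
  refine (h1.sub (h2.add h3)).congr fun a z _ => ?_
  unfold qC sc
  have e1 : c a i z * (∑ k, (σ a).s k l z * (σ a).D k (Ww D φ r Wu a) z) =
      ∑ k, (σ a).s k l z * (c a i z * (σ a).D k (Ww D φ r Wu a) z) := by
    rw [Finset.mul_sum]; exact Finset.sum_congr rfl fun k _ => by ring
  have e2 : (∑ k, (σ a).s k i z * (σ a).D k (Ww D φ r Wu a) z) * c a l z =
      ∑ k, (σ a).s k i z * (c a l z * (σ a).D k (Ww D φ r Wu a) z) := by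
    rw [Finset.sum_mul]; exact Finset.sum_congr rfl fun k _ => by ring
  rw [e1, e2]
  ring

/-- The closing conditions at a point. -/
structure Cl (ε Kc : ℝ) (σ : Sl E ι) (τ : Sl E κ) (W : E → ℝ) (c : ι → E → ℝ)
    (c' : κ → E → ℝ) (F0 NG g E0 v cv m : ℝ) (z : E) : Prop where
  m0 : 0 ≤ m
  f0 : 0 ≤ F0
  Em : E0 ≤ Kc * m
  F1 : F0 ≤ σ.F W z
  F2 : F0 ≤ τ.F W z
  one : 1 ≤ ε * F0
  gg : g ^ 2 ≤ ε * (m * F0)
  EE : E0 ≤ ε * F0
  vv : NG * v ≤ ε * (m * F0)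
  cc : cv ≤ ε * (m * F0)
  up : ∀ A : ι → ℝ, H747.SW.ss σ A z ≤ 2 * ∑ i, A i ^ 2
  up' : ∀ A : κ → ℝ, H747.SW.ss τ A z ≤ 2 * ∑ i, A i ^ 2
  cert : ∀ A B, 2 * (m * ((∑ i, A i ^ 2) + ∑ k, B k ^ 2)) ≤
      Ch.TH σ τ W z A B + tc σ c W z A + tc τ c' W z B

/-- **The pointwise total inequality in the far zone.** -/
theorem Wt.tot [Nonempty ι] (w : Wt U φ r G Nn eu Rs D Wu) (s : Fs1 σ e U r Rs)
    (s' : Fs1 τ e' U r Rs) (rk : Rk U φ r G D g om lam lam2) (hl : Bo U (fun _ _ => 1) lam)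
    (hp : ∀ a, ∀ z ∈ U a, ∀ A : ι → ℝ, 0 ≤ ∑ i, ∑ j, (σ a).s i j z * A i * A j)
    (hp' : ∀ a, ∀ z ∈ U a, ∀ A : κ → ℝ, 0 ≤ ∑ i, ∑ j, (τ a).s i j z * A i * A j)
    {c : α → ι → E → ℝ} {c' : α → κ → E → ℝ} {v₁ v₂ : α → E → ℝ}
    (hc : ∀ i l, Bo U (E0 r G eu) fun a z => c a i z * (σ a).D l (Ww D φ r Wu a) z)
    (hc' : ∀ i l, Bo U (E0 r G eu) fun a z => c' a i z * (τ a).D l (Ww D φ r Wu a) z)
    (hv1 : ∀ i, Bo U V fun a => dd (e i) (v₁ a)) (hv2 : ∀ i, Bo U V fun a => dd (e' i) (v₂ a))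
    (V0 : ∀ a, ∀ z ∈ U a, 0 ≤ V a z) (c0 : ∀ a, ∀ z ∈ U a, 0 ≤ cv a z)
    (hcv : ∀ a, ∀ z ∈ U a, g a z * (lam a z ^ 2 - lam2 a z) ≤ cv a z)
    {η Kc : ℝ} (hη : 0 < η) (hK : 0 ≤ Kc) :
    ∃ ε₀ > 0, ∀ a, ∀ z ∈ U a, ∀ F0 m : ℝ,
      Cl ε₀ Kc (σ a) (τ a) (Ww D φ r Wu a) (c a) (c' a) F0 (Nn a z + G a z) (g a z)
        (E0 r G eu a z) (V a z) (cv a z) m z →
      ∀ (A : ι → ℝ) (B : κ → ℝ) (x y : ℝ),
      4 * (m * H747.SW.ss (σ a) A z + m * H747.SW.ss (τ a) B z) -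
        η * (m * (σ a).F (Ww D φ r Wu a) z * x ^ 2 + m * (τ a).F (Ww D φ r Wu a) z * y ^ 2) ≤
      8 * (Ch.TH (σ a) (τ a) (Ww D φ r Wu a) z A B + tc (σ a) (c a) (Ww D φ r Wu a) z A +
        tc (τ a) (c' a) (Ww D φ r Wu a) z B) +
        H747.SW.qf (σ a) (τ a) (v₁ a) (v₂ a) (Ww D φ r Wu a) z A B x y := by
  obtain ⟨C, C0, hC⟩ := w.fz s s' rk hp hp' (w.qcb s hc) (w.qcb s' hc') hv1 hv2 V0 c0 hcv
  -- the shift
  obtain ⟨L, L0, hL⟩ := hl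
  obtain ⟨P, P0, hP⟩ := Bo.all (J := ι) (fun i => w.mvb rk (e i)) fun _ _ _ => zero_le_one
  obtain ⟨P', P0', hP'⟩ := Bo.all (J := κ) (fun i => w.mvb rk (e' i)) fun _ _ _ => zero_le_one
  set Dd : ℝ := L / 2 * (Fintype.card ι * P + Fintype.card κ * P') with hDd
  have D0 : 0 ≤ Dd := by positivity
  set K2 : ℝ := C * Kc with hK2
  have K20 : 0 ≤ K2 := by positivity
  set C1 : ℝ := (Fintype.card ι + Fintype.card κ : ℝ) * (K2 * (16 * Dd + 8)) ^ 2 / 16 +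
      K2 * (8 * Dd ^ 2 + 8 * Dd + 2) + 24 * Dd ^ 2 with hC1
  have C10 : 0 ≤ C1 := by positivity
  set Q : ℝ := 2 * (C1 + 14 * C * (4 + 2 * Kc)) with hQ
  have Q0 : 0 ≤ Q := by positivity
  refine ⟨η / (Q + 1), by positivity, fun a z hz F0 m cl A B x y => ?_⟩
  set ε : ℝ := η / (Q + 1) with hε
  have ε0 : 0 < ε := by positivity
  have E00 := w.E00 a z hz
  have hεQ : 2 * (C1 + 14 * C * (4 + 2 * Kc)) * ε ≤ η := by
    rw [← hQ, hε, mul_div_assoc', div_le_iff₀ (by positivity)]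
    nlinarith
  have f := hC a z hz
  have bD : |lam a z| / 2 * ((∑ i, |pv φ r om e a z i|) + ∑ k, |pv φ r om e' a z k|) ≤ Dd := by
    have l1 : |lam a z| ≤ L := by simpa using hL a z hz
    have s1 : ∑ i, |pv φ r om e a z i| ≤ Fintype.card ι * P := by
      refine (Finset.sum_le_sum (g := fun _ => P) fun i _ => ?_).trans ?_
      · have := hP i a z hz
        rw [mul_one] at this
        exact this
      · simp
    have s2 : ∑ i, |pv φ r om e' a z i| ≤ Fintype.card κ * P' := by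
      refine (Finset.sum_le_sum (g := fun _ => P') fun i _ => ?_).trans ?_
      · have := hP' i a z hz
        rw [mul_one] at this
        exact this
      · simp
    have n1 : 0 ≤ ∑ i, |pv φ r om e a z i| := Finset.sum_nonneg fun _ _ => abs_nonneg _
    have n2 : 0 ≤ ∑ i, |pv φ r om e' a z i| := Finset.sum_nonneg fun _ _ => abs_nonneg _
    exact mul_le_mul (by linarith) (by linarith) (by linarith) (by positivity)
  -- the constants at the point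
  have m0 := cl.m0
  have hC0 : C * E0 r G eu a z ≤ K2 * m := by
    calc C * E0 r G eu a z ≤ C * (Kc * m) := mul_le_mul_of_nonneg_left cl.Em C0
      _ = K2 * m := by rw [hK2]; ring
  have hclose := close_alg (m := m) (C1 := C1) (C := C) (Kc := Kc) (η := η) (F0 := F0)
    (ε := ε) (NG := Nn a z + G a z) (g := g a z) (E0 := E0 r G eu a z) (v := V a z)
    (cv := cv a z) (Zs := Z0 r G Nn eu g V cv a z) m0 C0 (by positivity) hK cl.f0 hεQ ε0.le E00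
    cl.Em cl.one cl.gg cl.EE cl.vv cl.cc rfl
  have key := f.tot (m := m) (Kc := K2) (D := Dd) (η := η)
    (F0 := F0) m0 hC0 hη.le bD cl.F1 cl.F2
    (by rw [← hC1]; exact hclose) cl.cert A B x y
  have u1 := mul_le_mul_of_nonneg_left (cl.up A) m0
  have u2 := mul_le_mul_of_nonneg_left (cl.up' B) m0
  have eq : H747.SW.qf (σ a) (τ a) (v₁ a) (v₂ a) (Ww D φ r Wu a) z A B x y =
    H747.S.qf (σ a) (τ a) (v₁ a) (v₂ a) (Ww D φ r Wu a) z A B x y := rfl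
  rw [eq]
  linarith

end fam

end Vale.Agent.P088.R2.H657.W
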