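import Vale.Agent.P088.R2.H657.W.Slots

/-!
# P088: the operator `Λ` in divergence form on `F = Ψ(φ, r)`

`Λ f = ∑ (s_ij ∂_i ∂_j f + (∂_i s_ij) ∂_j f)` with `s_ij` bounded and `D s_ij = O(1/r)`; up to
symbols of size `G / r` only the derivatives of `F` matter.
-/

open Set Filter
open scoped ContDiff Topology

noncomputable section

namespace Vale.Agent.P088.R2.H657.W

open Vale.Agent.P088.R2.H644.Sy

variable {α E ι κ : Type*} [NormedAddCommGroup E] [NormedSpace ℝ E] [Fintype ι] [Fintype κ]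

/-- The first order part. -/
def Dr (s : ι → ι → α → E → ℝ) (e : ι → E) (f : α → E → ℝ) (a : α) (z : E) : ℝ :=
  ∑ i, ∑ j, dd (e i) (s i j a) z * dd (e j) (f a) z

/-- The operator in divergence form. -/
def Lb (s : ι → ι → α → E → ℝ) (e : ι → E) (f : α → E → ℝ) (a : α) (z : E) : ℝ :=
  Lm s e f a z + Dr s e f a z

section cal

variable {U : α → Set E} {φ r G g h : α → E → ℝ} {D : α → ℕ → ℕ → ℝ → ℝ → ℝ} {k l : ℕ}
  {x y f : α → E → ℝ} {s : ι → ι → α → E → ℝ} {e : ι → E} {s' : κ → κ → α → E → ℝ} {e' : κ → E}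

/-- The size of the first order part. -/
theorem sDr (hU : ∀ a, IsOpen (U a)) (hs : ∀ i j t, So U h l fun a => dd t (s i j a))
    (hf : ∀ j, So U g l fun a => dd (e j) (f a)) :
    So U (fun a z => g a z * h a z) l (Dr s e f) :=
  Sf.sum hU Finset.univ fun i _ => Sf.sum hU Finset.univ fun j _ =>
    ((hs i j (e i)).mul hU (hf j)).wcongr fun _ _ _ => by ring

/-- The size of the second order part. -/
theorem sLm (hU : ∀ a, IsOpen (U a)) (hs : ∀ i j, So U (fun _ _ => 1) l (s i j))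
    (hf : ∀ i j, So U g l fun a => dd (e i) (dd (e j) (f a))) : So U g l (Lm s e f) :=
  Sf.sum hU Finset.univ fun i _ => Sf.sum hU Finset.univ fun j _ =>
    ((hs i j).mul hU (hf i j)).wcongr fun _ _ _ => by ring

end cal

section main

variable {U : α → Set E} {φ r G g : α → E → ℝ} {D : α → ℕ → ℕ → ℝ → ℝ → ℝ} {k l : ℕ}
  {s : ι → ι → α → E → ℝ} {e : ι → E} {s' : κ → κ → α → E → ℝ} {e' : κ → E}

/-- `f ↦ f/r` for symbols with the derivatives of `s` of size `1/r`. -/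
abbrev rG (r G : α → E → ℝ) (a : α) (z : E) : ℝ := G a z * (r a z)⁻¹

namespace Fc

/-- The first derivatives of `F`. -/
theorem s1 (h : Fc U φ r G D k) (v : E) (hl : l ≤ k + 2) :
    So U G l fun a => dd v (Fd D φ r 0 0 a) := h.sit' [] v (by simpa using hl)

theorem s2 (h : Fc U φ r G D k) (v w : E) (hl : l ≤ k + 1) :
    So U G l fun a => dd v (dd w (Fd D φ r 0 0 a)) := h.sit' [v] w (by simp; omega)

/-- **`∂_t Λ F` in divergence form.** -/
theorem T3' (h : Fc U φ r G D k) (hs : ∀ i j, Xc U r (l + 1) (s i j)) (hl : l ≤ k) (t : E) :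
    So U (rG r G) l fun a z => dd t (Lb s e (Fd D φ r 0 0) a) z -
      ∑ i, ∑ j, s i j a z * Mn D φ r [t, e i, e j] 0 0 a z := by
  have h1 := h.T3 (e := e) (fun i j => (hs i j).mono_k (Nat.le_succ l)) hl t
  have h2 : So U (rG r G) (l + 1) (Dr s e (Fd D φ r 0 0)) :=
    sDr h.op (fun i j t => (hs i j).d t) fun j => h.s1 (e j) (by omega)
  have h3 := So.dd h.op h2 t
  have h4 : So U G (l + 1) (Lm s e (Fd D φ r 0 0)) :=
    sLm h.op (fun i j => (hs i j).s.mono_k (by omega)) fun i j => h.s2 (e i) (e j) (by omega)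
  refine (Sf.add h.op h1 h3).congr h.op fun a z hz => ?_
  have e0 : dd t (Lb s e (Fd D φ r 0 0) a) z =
      dd t (fun z => Lm s e (Fd D φ r 0 0) a z + Dr s e (Fd D φ r 0 0) a z) z := rfl
  rw [e0, dd_add t (dfa h.op h4.sm hz) (dfa h.op h2.sm hz)]
  ring

/-- `Λ F` is of size `G`. -/
theorem sL (h : Fc U φ r G D k) (hs : ∀ i j, Xc U r l (s i j)) (hl : l ≤ k + 1) :
    So U G l (Lb s e (Fd D φ r 0 0)) := by
  obtain ⟨c, hc, hr⟩ := h.r0
  have h4 : So U G l (Lm s e (Fd D φ r 0 0)) :=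
    sLm h.op (fun i j => (hs i j).s.mono_k (by omega)) fun i j => h.s2 (e i) (e j) hl
  have h2 : So U (rG r G) l (Dr s e (Fd D φ r 0 0)) :=
    sDr h.op (fun i j t => (hs i j).d t) fun j => h.s1 (e j) (by omega)
  have h3 : So U G l (Dr s e (Fd D φ r 0 0)) :=
    So.le h2 (fun a z hz => mul_nonneg (h.G0 a z hz).le (inv_nonneg.2 (h.rp hz).le))
      (A := c⁻¹) fun a z hz => by
        have e0 : rG r G a z = (r a z)⁻¹ * G a z := mul_comm _ _
        rw [e0]
        exact mul_le_mul_of_nonneg_right (inv_anti₀ hc (hr a z hz)) (h.G0 a z hz).le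
  exact Sf.add h.op h4 h3

/-- **`Λ' Λ F` in divergence form.** -/
theorem T4' (h : Fc U φ r G D k) (hs : ∀ i j, Xc U r (l + 2) (s i j))
    (hs' : ∀ i j, Xc U r (l + 2) (s' i j)) (hl : l + 1 ≤ k) :
    So U (rG r G) l fun a z => Lb s' e' (Lb s e (Fd D φ r 0 0)) a z -
      ∑ m, ∑ p, s' m p a z * ∑ i, ∑ j, s i j a z *
        Mn D φ r [e' m, e' p, e i, e j] 0 0 a z := by
  have hU := h.op
  have h1 := h.T4 (e := e) (e' := e') (fun i j => (hs i j).mono_k (by omega : l + 1 ≤ l + 2))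
    (fun i j => (hs' i j).mono_k (by omega : l ≤ l + 2)) hl
  -- the first order part of `Λ F`
  have h2 : So U (rG r G) (l + 2) (Dr s e (Fd D φ r 0 0)) :=
    sDr hU (fun i j t => (hs i j).d t) fun j => h.s1 (e j) (by omega)
  have h3 : So U (rG r G) l (Lm s' e' (Dr s e (Fd D φ r 0 0))) :=
    sLm hU (fun i j => (hs' i j).s.mono_k (by omega)) fun i j => So.dd hU (So.dd hU h2 (e' j)) (e' i)
  -- the first order part of `Λ'`
  have h4 : So U G (l + 2) (Lb s e (Fd D φ r 0 0)) := h.sL hs (by omega)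
  have h5 : So U (rG r G) l (Dr s' e' (Lb s e (Fd D φ r 0 0))) :=
    sDr hU (fun i j t => ((hs' i j).d t).mono_k (by omega)) fun j =>
      (So.dd hU h4 (e' j)).mono_k (by omega)
  have h6 : So U G (l + 2) (Lm s e (Fd D φ r 0 0)) :=
    sLm hU (fun i j => (hs i j).s.mono_k (by omega)) fun i j => h.s2 (e i) (e j) (by omega)
  refine (Sf.add hU (Sf.add hU h1 h3) h5).congr hU fun a z hz => ?_
  have e0 : Lb s' e' (Lb s e (Fd D φ r 0 0)) a z =
      Lm s' e' (Lb s e (Fd D φ r 0 0)) a z + Dr s' e' (Lb s e (Fd D φ r 0 0)) a z := rfl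
  have e1 : Lm s' e' (Lb s e (Fd D φ r 0 0)) a z =
      Lm s' e' (Lm s e (Fd D φ r 0 0)) a z + Lm s' e' (Dr s e (Fd D φ r 0 0)) a z := by
    unfold Lm
    rw [← Finset.sum_add_distrib]
    refine Finset.sum_congr rfl fun m _ => ?_
    rw [← Finset.sum_add_distrib]
    refine Finset.sum_congr rfl fun p _ => ?_
    rw [← mul_add]
    congr 1
    have c1 : ∀ z ∈ U a, dd (e' p) (Lb s e (Fd D φ r 0 0) a) z =
        dd (e' p) (Lm s e (Fd D φ r 0 0) a) z + dd (e' p) (Dr s e (Fd D φ r 0 0) a) z :=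
      fun z hz => dd_add (e' p) (dfa hU h6.sm hz) (dfa hU h2.sm hz)
    have c2 : dd (e' m) (dd (e' p) (Lb s e (Fd D φ r 0 0) a)) z =
        dd (e' m) (fun z => dd (e' p) (Lm s e (Fd D φ r 0 0) a) z +
          dd (e' p) (Dr s e (Fd D φ r 0 0) a) z) z := by
      have hh : dd (e' p) (Lb s e (Fd D φ r 0 0) a) =ᶠ[𝓝 z] fun z =>
          dd (e' p) (Lm s e (Fd D φ r 0 0) a) z + dd (e' p) (Dr s e (Fd D φ r 0 0) a) z := by
        filter_upwards [(hU a).mem_nhds hz] with w hw using c1 w hw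
      have e5 : ∀ (f' : E → ℝ) (g' : E → ℝ), f' =ᶠ[𝓝 z] g' → dd (e' m) f' z = dd (e' m) g' z := by
        intro f' g' hf
        have := hf.fderiv_eq (𝕜 := ℝ)
        unfold dd
        rw [this]
      exact e5 _ _ hh
    have d1 : DifferentiableAt ℝ (dd (e' p) (Lm s e (Fd D φ r 0 0) a)) z :=
      dfa hU (x := fun a => dd (e' p) (Lm s e (Fd D φ r 0 0) a)) (So.dd hU h6 (e' p)).sm hz
    have d2 : DifferentiableAt ℝ (dd (e' p) (Dr s e (Fd D φ r 0 0) a)) z :=
      dfa hU (x := fun a => dd (e' p) (Dr s e (Fd D φ r 0 0) a)) (So.dd hU h2 (e' p)).sm hz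
    rw [c2, dd_add (e' m) d1 d2]
    rfl
  rw [e0, e1]
  ring

end Fc

end main

end Vale.Agent.P088.R2.H657.W
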