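import Vale.Agent.P088.R2.H747.S.Sem

/-!
# P088: the shift of the dressed derivatives in the far zone

If the Hessian of `W` is `g n ⊗ n` up to `e`, its third traces are `λ g s n` and its fourth traces
`λ₂ g s²` up to `e`, then the pointwise total form at `Z` is, up to errors, the certified form at
`Z - (λ/2) (a p, b p')`, and the errors are paid by the margin.
-/

open Set Filter
open scoped ContDiff Topology

noncomputable section

namespace Vale.Agent.P088.R2.H657.W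

section alg

variable {J : Type*} [Fintype J]

/-- The `ℓ¹` norm. -/
def L1 (Z : J → ℝ) : ℝ := ∑ j, |Z j|

theorem L1_nonneg (Z : J → ℝ) : 0 ≤ L1 Z := Finset.sum_nonneg fun _ _ => abs_nonneg _

theorem L1_sq (Z : J → ℝ) : L1 Z ^ 2 ≤ (Fintype.card J : ℝ) * ∑ j, Z j ^ 2 := by
  have h := sq_sum_le_card_mul_sum_sq (s := (Finset.univ : Finset J)) (f := fun j => |Z j|)
  simp only [sq_abs, Finset.card_univ] at h
  exact h

theorem sum_sq_le_L1 (Z : J → ℝ) : ∑ j, Z j ^ 2 ≤ L1 Z ^ 2 := by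
  have h := Finset.sum_sq_le_sq_sum_of_nonneg (s := (Finset.univ : Finset J))
    (f := fun j => |Z j|) fun j _ => abs_nonneg _
  simp only [sq_abs] at h
  exact h

/-- The algebraic identity of the shift. -/
theorem sh1 (K : J → J → ℝ) (n h Z X : J → ℝ) {g lam t s f4 lam2 : ℝ} (ht : lam = 2 * t)
    (hs : ∑ j, n j * X j = s) :
    8 * (∑ i, ∑ j, K i j * Z i * Z j) - 8 * (∑ j, h j * Z j) + f4 =
      8 * (∑ i, ∑ j, K i j * (Z i - t * X i) * (Z j - t * X j)) +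
      2 * (g * (lam2 - lam ^ 2)) * s ^ 2 +
      (8 * (∑ i, ∑ j, (K i j - g * n i * n j) *
        (Z i * Z j - (Z i - t * X i) * (Z j - t * X j))) -
        8 * (∑ j, (h j - lam * g * s * n j) * Z j) + (f4 - 2 * lam2 * g * s ^ 2)) := by
  have e0 : ∑ j, n j * (Z j - t * X j) = (∑ j, n j * Z j) - t * s := by
    rw [← hs, Finset.mul_sum, ← Finset.sum_sub_distrib]
    exact Finset.sum_congr rfl fun j _ => by ring
  have e1 : ∑ i, ∑ j, (K i j - g * n i * n j) *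
      (Z i * Z j - (Z i - t * X i) * (Z j - t * X j)) =
      (∑ i, ∑ j, K i j * Z i * Z j) -
        (∑ i, ∑ j, K i j * (Z i - t * X i) * (Z j - t * X j)) -
      g * ((∑ j, n j * Z j) * (∑ j, n j * Z j)) +
      g * ((∑ j, n j * (Z j - t * X j)) * ∑ j, n j * (Z j - t * X j)) := by
    rw [Finset.sum_mul_sum, Finset.sum_mul_sum]
    simp only [Finset.mul_sum, ← Finset.sum_sub_distrib, ← Finset.sum_add_distrib]
    exact Finset.sum_congr rfl fun i _ => Finset.sum_congr rfl fun j _ => by ring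
  have e2 : ∑ j, (h j - lam * g * s * n j) * Z j =
      (∑ j, h j * Z j) - lam * g * s * ∑ j, n j * Z j := by
    rw [Finset.mul_sum, ← Finset.sum_sub_distrib]
    exact Finset.sum_congr rfl fun j _ => by ring
  rw [e1, e2, e0, ht]
  ring

/-- The variation of a form with small entries. -/
theorem sh2 {α : J → J → ℝ} {e : ℝ} (h : ∀ i j, |α i j| ≤ e) (Z Y : J → ℝ) :
    |∑ i, ∑ j, α i j * (Z i * Z j - Y i * Y j)| ≤
      e * (L1 (fun j => Z j - Y j) * (L1 Z + L1 Y)) := by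
  have h1 : |∑ i, ∑ j, α i j * (Z i * Z j - Y i * Y j)| ≤
      ∑ i, ∑ j, e * (|Z i - Y i| * |Z j| + |Z j - Y j| * |Y i|) := by
    refine (Finset.abs_sum_le_sum_abs _ _).trans (Finset.sum_le_sum fun i _ => ?_)
    refine (Finset.abs_sum_le_sum_abs _ _).trans (Finset.sum_le_sum fun j _ => ?_)
    rw [abs_mul]
    refine mul_le_mul (h i j) ?_ (abs_nonneg _) ((abs_nonneg _).trans (h i j))
    have e1 : Z i * Z j - Y i * Y j = (Z i - Y i) * Z j + (Z j - Y j) * Y i := by ring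
    rw [e1]
    refine (abs_add_le _ _).trans ?_
    rw [abs_mul, abs_mul]
  refine h1.trans (le_of_eq ?_)
  unfold L1
  have e2 : (∑ i, ∑ j, e * (|Z i - Y i| * |Z j| + |Z j - Y j| * |Y i|)) =
      e * ((∑ i, |Z i - Y i|) * (∑ j, |Z j|)) + e * ((∑ i, |Y i|) * ∑ j, |Z j - Y j|) := by
    rw [Finset.sum_mul_sum, Finset.sum_mul_sum]
    simp only [Finset.mul_sum, ← Finset.sum_add_distrib]
    exact Finset.sum_congr rfl fun i _ => Finset.sum_congr rfl fun j _ => by ring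
  rw [e2]
  ring

theorem sh3 {β : J → ℝ} {e : ℝ} (h : ∀ j, |β j| ≤ e) (Z : J → ℝ) :
    |∑ j, β j * Z j| ≤ e * L1 Z := by
  unfold L1
  rw [Finset.mul_sum]
  refine (Finset.abs_sum_le_sum_abs _ _).trans (Finset.sum_le_sum fun j _ => ?_)
  rw [abs_mul]
  exact mul_le_mul_of_nonneg_right (h j) (abs_nonneg _)

/-- The arithmetic of the shift. -/
theorem sh_num {m e K n L S' S D h : ℝ} (hm : 0 ≤ m) (he : e ≤ K * m) (hn : 0 < n)
    (hD : 0 ≤ D) (hh : 0 ≤ h) (hL : 0 ≤ L) (hLS : L ^ 2 ≤ n * S')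
    (hS : S ≤ 3 / 2 * S' + 3 * (D * h) ^ 2) (hS' : 0 ≤ S') :
    8 * (m * S) - m * (n * (K * (16 * D + 8)) ^ 2 / 16 + K * (8 * D ^ 2 + 8 * D + 2) +
      24 * D ^ 2) * h ^ 2 ≤
    16 * (m * S') - (8 * (e * (D * h * (2 * L + D * h))) + 8 * (e * h * (L + D * h)) +
      2 * (e * h ^ 2)) := by
  have h1 : 8 * (e * (D * h * (2 * L + D * h))) + 8 * (e * h * (L + D * h)) + 2 * (e * h ^ 2) ≤
      (K * m) * (h * L * (16 * D + 8) + h ^ 2 * (8 * D ^ 2 + 8 * D + 2)) := by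
    have e1 : 8 * (e * (D * h * (2 * L + D * h))) + 8 * (e * h * (L + D * h)) + 2 * (e * h ^ 2) =
        e * (h * L * (16 * D + 8) + h ^ 2 * (8 * D ^ 2 + 8 * D + 2)) := by ring
    rw [e1]
    exact mul_le_mul_of_nonneg_right he (by positivity)
  have h2 : K * (h * L * (16 * D + 8)) ≤ 4 * S' + n * (K * (16 * D + 8)) ^ 2 / 16 * h ^ 2 := by
    have h3 : 0 ≤ (2 * L / n - K * (16 * D + 8) * h / 4) ^ 2 := sq_nonneg _
    have h4 : 4 * L ^ 2 / n ≤ 4 * S' := by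
      rw [div_le_iff₀ hn]; nlinarith
    have h5 : n * (2 * L / n - K * (16 * D + 8) * h / 4) ^ 2 =
        4 * L ^ 2 / n - K * (h * L * (16 * D + 8)) +
          n * (K * (16 * D + 8)) ^ 2 / 16 * h ^ 2 := by
      field_simp
      ring
    have h6 : 0 ≤ n * (2 * L / n - K * (16 * D + 8) * h / 4) ^ 2 := mul_nonneg hn.le h3
    rw [h5] at h6
    linarith
  have h7 := mul_le_mul_of_nonneg_left h2 hm
  have h8 := mul_le_mul_of_nonneg_left hS hm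
  have h9 : 0 ≤ m * S' := mul_nonneg hm hS'
  have h10 : (K * m) * (h * L * (16 * D + 8) + h ^ 2 * (8 * D ^ 2 + 8 * D + 2)) =
      m * (K * (h * L * (16 * D + 8))) + m * (K * (8 * D ^ 2 + 8 * D + 2) * h ^ 2) := by ring
  have h11 : m * (n * (K * (16 * D + 8)) ^ 2 / 16 + K * (8 * D ^ 2 + 8 * D + 2) +
      24 * D ^ 2) * h ^ 2 = m * (n * (K * (16 * D + 8)) ^ 2 / 16 * h ^ 2) +
      m * (K * (8 * D ^ 2 + 8 * D + 2) * h ^ 2) + 24 * (m * (D * h) ^ 2) := by ring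
  rw [h11]
  linarith

/-- **The shift.** -/
theorem shift {K : J → J → ℝ} {n h Z X : J → ℝ} {g lam t s f4 lam2 m e Kc D Zs h0 : ℝ}
    [Nonempty J]
    (ht : lam = 2 * t) (hs : ∑ j, n j * X j = s) (hK : ∀ i j, |K i j - g * n i * n j| ≤ e)
    (hh : ∀ j, |h j - lam * g * s * n j| ≤ e * h0) (h4 : |f4 - 2 * lam2 * g * s ^ 2| ≤ 2 * e * h0 ^ 2)
    (hz : 2 * (g * (lam ^ 2 - lam2)) * s ^ 2 ≤ 2 * Zs * h0 ^ 2) (hm : 0 ≤ m) (he0 : 0 ≤ e)
    (he : e ≤ Kc * m) (hD : 0 ≤ D) (h00 : 0 ≤ h0) (hX : |t| * L1 X ≤ D * h0)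
    (cert : ∀ Y : J → ℝ, 2 * (m * ∑ j, Y j ^ 2) ≤ ∑ i, ∑ j, K i j * Y i * Y j) :
    8 * (m * ∑ j, Z j ^ 2) - m * ((Fintype.card J : ℝ) * (Kc * (16 * D + 8)) ^ 2 / 16 +
      Kc * (8 * D ^ 2 + 8 * D + 2) + 24 * D ^ 2) * h0 ^ 2 - 2 * Zs * h0 ^ 2 ≤
      8 * (∑ i, ∑ j, K i j * Z i * Z j) - 8 * (∑ j, h j * Z j) + f4 := by
  set Y : J → ℝ := fun j => Z j - t * X j with hY
  have e1 := sh1 K n h Z X (g := g) (f4 := f4) (lam2 := lam2) ht hs
  have b1 := sh2 hK Z Y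
  have b2 := sh3 hh Z
  have dZ : L1 (fun j => Z j - Y j) = |t| * L1 X := by
    unfold L1
    rw [Finset.mul_sum]
    exact Finset.sum_congr rfl fun j _ => by rw [hY, ← abs_mul]; congr 1; ring
  have lZ : L1 Z ≤ L1 Y + D * h0 := by
    have : L1 Z ≤ L1 Y + L1 (fun j => Z j - Y j) := by
      unfold L1
      rw [← Finset.sum_add_distrib]
      refine Finset.sum_le_sum fun j _ => ?_
      have := abs_add_le (Y j) (Z j - Y j)
      simpa using this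
    rw [dZ] at this
    linarith
  have c1 := cert Y
  have l0 := L1_nonneg Y
  have l1 := L1_nonneg Z
  have c0 : (0 : ℝ) < Fintype.card J := by exact_mod_cast Fintype.card_pos
  have sS : ∑ j, Z j ^ 2 ≤ 3 / 2 * (∑ j, Y j ^ 2) + 3 * (D * h0) ^ 2 := by
    have s1 : ∑ j, Z j ^ 2 ≤ 3 / 2 * (∑ j, Y j ^ 2) + 3 * ∑ j, (Z j - Y j) ^ 2 := by
      rw [Finset.mul_sum, Finset.mul_sum, ← Finset.sum_add_distrib]
      refine Finset.sum_le_sum fun j _ => ?_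
      nlinarith [sq_nonneg (Y j - 2 * (Z j - Y j))]
    have s2 := sum_sq_le_L1 (fun j => Z j - Y j)
    have s3 : L1 (fun j => Z j - Y j) ^ 2 ≤ (D * h0) ^ 2 := by
      rw [dZ]
      exact pow_le_pow_left₀ (mul_nonneg (abs_nonneg _) (L1_nonneg _)) hX 2
    linarith
  have num := sh_num (K := Kc) (S' := ∑ j, Y j ^ 2) hm he c0 hD h00 l0 (L1_sq Y) sS
    (Finset.sum_nonneg fun j _ => sq_nonneg _)
  -- the errors
  have B1 : 8 * (∑ i, ∑ j, (K i j - g * n i * n j) * (Z i * Z j - Y i * Y j)) ≥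
      -(8 * (e * (D * h0 * (2 * L1 Y + D * h0)))) := by
    have q1 : e * (L1 (fun j => Z j - Y j) * (L1 Z + L1 Y)) ≤
        e * (D * h0 * (2 * L1 Y + D * h0)) := by
      refine mul_le_mul_of_nonneg_left ?_ he0
      rw [dZ]
      exact mul_le_mul hX (by linarith) (by positivity) (by positivity)
    have := (abs_le.1 b1).1
    linarith
  have B2 : -(8 * (∑ j, (h j - lam * g * s * n j) * Z j)) ≥ -(8 * (e * h0 * (L1 Y + D * h0))) := by
    have q1 : e * h0 * L1 Z ≤ e * h0 * (L1 Y + D * h0) :=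
      mul_le_mul_of_nonneg_left lZ (mul_nonneg he0 h00)
    have := (abs_le.1 b2).2
    linarith
  have B3 := (abs_le.1 h4).1
  have e2 : 2 * (g * (lam2 - lam ^ 2)) * s ^ 2 = -(2 * (g * (lam ^ 2 - lam2)) * s ^ 2) := by ring
  rw [e1, e2]
  have e3 : (∑ i, ∑ j, (K i j - g * n i * n j) *
      (Z i * Z j - (Z i - t * X i) * (Z j - t * X j))) =
      ∑ i, ∑ j, (K i j - g * n i * n j) * (Z i * Z j - Y i * Y j) := rfl
  have e4 : (∑ i, ∑ j, K i j * (Z i - t * X i) * (Z j - t * X j)) =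
      ∑ i, ∑ j, K i j * Y i * Y j := rfl
  rw [e3, e4]
  linarith

end alg

/-! ## The slots -/

open Vale.Agent.P088.R2.H961.GW Vale.Agent.P088.R2.H644 Vale.Agent.P088.R2.H960.W
  Vale.Agent.P088.R2.H747.S

variable {E ι κ : Type*} [NormedAddCommGroup E] [NormedSpace ℝ E] [Fintype ι] [Fintype κ]

/-- The matrix of the certified form. -/
def KK (σ : Sl E ι) (τ : Sl E κ) (W : E → ℝ) (c : ι → E → ℝ) (c' : κ → E → ℝ) (z : E) :
    ι ⊕ κ → ι ⊕ κ → ℝ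
  | .inl i, .inl l => σ.Hc W i l z + qC σ c W i l z
  | .inl i, .inr k => Ch.Mc σ τ W i k z
  | .inr k, .inl i => Ch.Mc σ τ W i k z
  | .inr k, .inr m => τ.Hc W k m z + qC τ c' W k m z

theorem KK_eq (σ : Sl E ι) (τ : Sl E κ) (W : E → ℝ) (c : ι → E → ℝ) (c' : κ → E → ℝ) (z : E)
    (Z : ι ⊕ κ → ℝ) : ∑ i, ∑ j, KK σ τ W c c' z i j * Z i * Z j =
      Ch.TH σ τ W z (fun i => Z (.inl i)) (fun k => Z (.inr k)) +
        tc σ c W z (fun i => Z (.inl i)) + tc τ c' W z (fun k => Z (.inr k)) := by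
  have e1 := TC_eq σ c W (fun i _ => Z (.inl i)) z
  have e2 := TC_eq τ c' W (fun k _ => Z (.inr k)) z
  have e1' : tc σ c W z (fun i => Z (.inl i)) = TC σ c W (fun i _ => Z (.inl i)) z := rfl
  have e2' : tc τ c' W z (fun k => Z (.inr k)) = TC τ c' W (fun k _ => Z (.inr k)) z := rfl
  rw [e1', e2', e1, e2]
  unfold Ch.TH
  simp only [Fintype.sum_sum_type, KK, Finset.sum_add_distrib, add_mul]
  have e3 : (∑ k, ∑ i, Ch.Mc σ τ W i k z * Z (.inr k) * Z (.inl i)) =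
      ∑ i, ∑ k, Ch.Mc σ τ W i k z * Z (.inl i) * Z (.inr k) := by
    rw [Finset.sum_comm]
    exact Finset.sum_congr rfl fun i _ => Finset.sum_congr rfl fun k _ => by ring
  rw [e3]
  ring

/-- The covector paired with `(A, B)` in the third order terms. -/
def hh (σ : Sl E ι) (τ : Sl E κ) (W : E → ℝ) (a b : ℝ) (z : E) : ι ⊕ κ → ℝ
  | .inl j => a * (∑ i, σ.s i j z * σ.D i (σ.Λ W) z) + b * ∑ i, σ.s i j z * σ.D i (τ.Λ W) z
  | .inr j => a * (∑ i, τ.s i j z * τ.D i (σ.Λ W) z) + b * ∑ i, τ.s i j z * τ.D i (τ.Λ W) z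

theorem gA_eq (σ : Sl E ι) (f : E → ℝ) (z : E) (A : ι → ℝ) :
    gA σ f z A = ∑ j, (∑ i, σ.s i j z * σ.D i f z) * A j := by
  unfold gA
  rw [Finset.sum_comm]
  exact Finset.sum_congr rfl fun j _ => by rw [Finset.sum_mul]

theorem hh_eq (σ : Sl E ι) (τ : Sl E κ) (W : E → ℝ) (a b : ℝ) (z : E) (Z : ι ⊕ κ → ℝ) :
    ∑ j, hh σ τ W a b z j * Z j =
      a * gA σ (σ.Λ W) z (fun i => Z (.inl i)) + b * gA σ (τ.Λ W) z (fun i => Z (.inl i)) +
        a * gA τ (σ.Λ W) z (fun k => Z (.inr k)) + b * gA τ (τ.Λ W) z (fun k => Z (.inr k)) := by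
  rw [gA_eq, gA_eq, gA_eq, gA_eq]
  simp only [Fintype.sum_sum_type, hh, Finset.mul_sum, add_mul, Finset.sum_add_distrib,
    Finset.sum_mul, mul_assoc]
  ring

/-- The gradient `n = s p`. -/
def nn (σ : Sl E ι) (p : ι → ℝ) (z : E) (j : ι) : ℝ := ∑ i, σ.s i j z * p i

/-- The data of the shift at a point: `p`, `p'` are the derivatives of `φ`, `g` the second
derivative of the profile, `λ g` and `λ₂ g` the third and the fourth. -/
structure Fz (σ : Sl E ι) (τ : Sl E κ) (v₁ v₂ W : E → ℝ) (c : ι → E → ℝ) (c' : κ → E → ℝ)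
    (p : ι → ℝ) (p' : κ → ℝ) (g lam lam2 e Zs : ℝ) (z : E) : Prop where
  e0 : 0 ≤ e
  xx : ∀ i l, |σ.Hc W i l z + qC σ c W i l z - g * nn σ p z i * nn σ p z l| ≤ e
  xy : ∀ i k, |Ch.Mc σ τ W i k z - g * nn σ p z i * nn τ p' z k| ≤ e
  yy : ∀ k m, |τ.Hc W k m z + qC τ c' W k m z - g * nn τ p' z k * nn τ p' z m| ≤ e
  txx : ∀ j, |(∑ i, σ.s i j z * σ.D i (σ.Λ W) z) -
    lam * g * (∑ i, nn σ p z i * p i) * nn σ p z j| ≤ e
  txy : ∀ j, |(∑ i, σ.s i j z * σ.D i (τ.Λ W) z) -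
    lam * g * (∑ i, nn τ p' z i * p' i) * nn σ p z j| ≤ e
  tyx : ∀ j, |(∑ i, τ.s i j z * τ.D i (σ.Λ W) z) -
    lam * g * (∑ i, nn σ p z i * p i) * nn τ p' z j| ≤ e
  tyy : ∀ j, |(∑ i, τ.s i j z * τ.D i (τ.Λ W) z) -
    lam * g * (∑ i, nn τ p' z i * p' i) * nn τ p' z j| ≤ e
  qxx : |σ.Λ (σ.Λ W) z - lam2 * g * (∑ i, nn σ p z i * p i) ^ 2| ≤ e
  qxy : |σ.Λ (τ.Λ W) z - lam2 * g * ((∑ i, nn σ p z i * p i) * ∑ i, nn τ p' z i * p' i)| ≤ e
  qyy : |τ.Λ (τ.Λ W) z - lam2 * g * (∑ i, nn τ p' z i * p' i) ^ 2| ≤ e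
  gx : |Ch.G2 σ W z| ≤ Zs
  gy : |Ch.G2 τ W z| ≤ Zs
  m2 : |M2 σ τ W W z| ≤ Zs
  vx : |σ.Γ W v₁ z| ≤ Zs
  vy : |τ.Γ W v₂ z| ≤ Zs
  lx : g * (lam ^ 2 - lam2) * (∑ i, nn σ p z i * p i) ^ 2 ≤ Zs
  ly : g * (lam ^ 2 - lam2) * (∑ i, nn τ p' z i * p' i) ^ 2 ≤ Zs
  sx : 0 ≤ ∑ i, nn σ p z i * p i
  sy : 0 ≤ ∑ i, nn τ p' z i * p' i

/-- The square of a weighted sum. -/
theorem sq_wsum {u x y a b Z : ℝ} (hx : u * x ^ 2 ≤ Z) (hy : u * y ^ 2 ≤ Z) (x0 : 0 ≤ x)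
    (y0 : 0 ≤ y) (hZ : 0 ≤ Z) : u * (x * a + y * b) ^ 2 ≤ Z * (|a| + |b|) ^ 2 := by
  rcases le_or_gt u 0 with hu | hu
  · have : u * (x * a + y * b) ^ 2 ≤ 0 := mul_nonpos_of_nonpos_of_nonneg hu (sq_nonneg _)
    have h2 : 0 ≤ Z * (|a| + |b|) ^ 2 := by positivity
    linarith
  · have h1 : |x * a + y * b| ≤ max x y * (|a| + |b|) := by
      refine (abs_add_le _ _).trans ?_
      rw [abs_mul, abs_mul, abs_of_nonneg x0, abs_of_nonneg y0, mul_add]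
      exact add_le_add (mul_le_mul_of_nonneg_right (le_max_left _ _) (abs_nonneg _))
        (mul_le_mul_of_nonneg_right (le_max_right _ _) (abs_nonneg _))
    have h2 : (x * a + y * b) ^ 2 ≤ (max x y) ^ 2 * (|a| + |b|) ^ 2 := by
      rw [← mul_pow, ← sq_abs (x * a + y * b)]
      exact pow_le_pow_left₀ (abs_nonneg _) h1 2
    have h3 : u * (max x y) ^ 2 ≤ Z := by
      rcases max_cases x y with ⟨h, _⟩ | ⟨h, _⟩ <;> rw [h] <;> assumption
    calc u * (x * a + y * b) ^ 2 ≤ u * ((max x y) ^ 2 * (|a| + |b|) ^ 2) :=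
        mul_le_mul_of_nonneg_left h2 hu.le
      _ = u * (max x y) ^ 2 * (|a| + |b|) ^ 2 := by ring
      _ ≤ _ := mul_le_mul_of_nonneg_right h3 (by positivity)

/-- The third order terms. -/
theorem tri {u v U V x y e : ℝ} (hu : |u - U| ≤ e) (hv : |v - V| ≤ e) :
    |x * u + y * v - (U * x + V * y)| ≤ e * (|x| + |y|) := by
  have e1 : x * u + y * v - (U * x + V * y) = x * (u - U) + y * (v - V) := by ring
  rw [e1]
  refine (abs_add_le _ _).trans ?_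
  rw [abs_mul, abs_mul]
  have w1 := mul_le_mul_of_nonneg_left hu (abs_nonneg x)
  have w2 := mul_le_mul_of_nonneg_left hv (abs_nonneg y)
  linarith

/-- The fourth order terms. -/
theorem quad4 {p q r P Q R x y e : ℝ} (hp : |p - P| ≤ e) (hq : |q - Q| ≤ e) (hr : |r - R| ≤ e) :
    |2 * (p * x ^ 2 + 2 * (q * (x * y)) + r * y ^ 2) -
      2 * (P * x ^ 2 + 2 * (Q * (x * y)) + R * y ^ 2)| ≤ 2 * e * (|x| + |y|) ^ 2 := by
  have e1 : 2 * (p * x ^ 2 + 2 * (q * (x * y)) + r * y ^ 2) -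
      2 * (P * x ^ 2 + 2 * (Q * (x * y)) + R * y ^ 2) =
      2 * ((p - P) * x ^ 2 + 2 * ((q - Q) * (x * y)) + (r - R) * y ^ 2) := by ring
  have x0 := abs_nonneg x
  have y0 := abs_nonneg y
  have w1 := mul_le_mul_of_nonneg_right hp (sq_nonneg x)
  have w2 := mul_le_mul_of_nonneg_right hr (sq_nonneg y)
  have w3 := mul_le_mul_of_nonneg_right hq (mul_nonneg x0 y0)
  have e2 : e * (|x| + |y|) ^ 2 = e * x ^ 2 + 2 * (e * (|x| * |y|)) + e * y ^ 2 := by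
    rw [← sq_abs x, ← sq_abs y]; ring
  have b1 : |(p - P) * x ^ 2 + 2 * ((q - Q) * (x * y)) + (r - R) * y ^ 2| ≤
      e * (|x| + |y|) ^ 2 := by
    refine (abs_add_three _ _ _).trans ?_
    rw [abs_mul, abs_mul, abs_mul, abs_mul, abs_mul, abs_two, abs_of_nonneg (sq_nonneg x),
      abs_of_nonneg (sq_nonneg y)]
    linarith
  rw [e1, abs_mul, abs_two]
  linarith

/-- The zero order terms. -/
theorem zero_alg {m C1 Zs η F0 F1 F2 x y g1 g2 g3 w1 w2 S T H f4 : ℝ} (hm : 0 ≤ m) (hη : 0 ≤ η)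
    (hC1 : 0 ≤ m * C1) (hF1 : F0 ≤ F1) (hF2 : F0 ≤ F2)
    (hC : 2 * (m * C1 + 14 * Zs) ≤ η * (m * F0)) (b1 : |g1| ≤ Zs) (b2 : |g2| ≤ Zs)
    (b3 : |g3| ≤ Zs) (b4 : |w1| ≤ Zs) (b5 : |w2| ≤ Zs)
    (key : 8 * (m * S) - m * C1 * (|x| + |y|) ^ 2 - 2 * Zs * (|x| + |y|) ^ 2 ≤
      8 * T - 8 * H + f4) :
    8 * (m * S) - η * (m * F1 * x ^ 2 + m * F2 * y ^ 2) ≤
      8 * T + (-(8 * (g1 * x ^ 2 + 2 * (g3 * (x * y)) + g2 * y ^ 2)) - 8 * H + f4 +
        4 * (w1 * x ^ 2 + w2 * y ^ 2)) := by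
  have x0 := abs_nonneg x
  have y0 := abs_nonneg y
  have hZs : 0 ≤ Zs := (abs_nonneg _).trans b1
  have h2 : (|x| + |y|) ^ 2 ≤ 2 * (x ^ 2 + y ^ 2) := by
    rw [← sq_abs x, ← sq_abs y]; nlinarith [sq_nonneg (|x| - |y|)]
  have a1 : g1 * x ^ 2 ≤ Zs * x ^ 2 := mul_le_mul_of_nonneg_right ((abs_le.1 b1).2) (sq_nonneg _)
  have a2 : g2 * y ^ 2 ≤ Zs * y ^ 2 := mul_le_mul_of_nonneg_right ((abs_le.1 b2).2) (sq_nonneg _)
  have a3 : g3 * (x * y) ≤ Zs * (|x| * |y|) := by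
    refine (le_abs_self _).trans ?_
    rw [abs_mul, abs_mul]
    exact mul_le_mul_of_nonneg_right b3 (by positivity)
  have a4 : -(Zs * x ^ 2) ≤ w1 * x ^ 2 := by
    have := mul_le_mul_of_nonneg_right ((abs_le.1 b4).1) (sq_nonneg x)
    linarith
  have a5 : -(Zs * y ^ 2) ≤ w2 * y ^ 2 := by
    have := mul_le_mul_of_nonneg_right ((abs_le.1 b5).1) (sq_nonneg y)
    linarith
  have a6 : Zs * (|x| + |y|) ^ 2 = Zs * x ^ 2 + 2 * (Zs * (|x| * |y|)) + Zs * y ^ 2 := by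
    rw [← sq_abs x, ← sq_abs y]; ring
  have a7 : 0 ≤ Zs * (|x| * |y|) := by positivity
  have g1' : η * (m * F0) * (x ^ 2 + y ^ 2) ≤ η * (m * F1 * x ^ 2 + m * F2 * y ^ 2) := by
    have u1 := mul_le_mul_of_nonneg_right (mul_le_mul_of_nonneg_left hF1 (mul_nonneg hη hm))
      (sq_nonneg x)
    have u2 := mul_le_mul_of_nonneg_right (mul_le_mul_of_nonneg_left hF2 (mul_nonneg hη hm))
      (sq_nonneg y)
    linarith
  have C0 : 0 ≤ m * C1 + 14 * Zs := by linarith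
  have g2' : (m * C1 + 14 * Zs) * (|x| + |y|) ^ 2 ≤ η * (m * F0) * (x ^ 2 + y ^ 2) := by
    calc (m * C1 + 14 * Zs) * (|x| + |y|) ^ 2 ≤ (m * C1 + 14 * Zs) * (2 * (x ^ 2 + y ^ 2)) :=
        mul_le_mul_of_nonneg_left h2 C0
      _ = 2 * (m * C1 + 14 * Zs) * (x ^ 2 + y ^ 2) := by ring
      _ ≤ _ := mul_le_mul_of_nonneg_right hC (by positivity)
  linarith

section tot

variable {σ : Sl E ι} {τ : Sl E κ} {v₁ v₂ W : E → ℝ} {c : ι → E → ℝ} {c' : κ → E → ℝ}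
  {p : ι → ℝ} {p' : κ → ℝ} {g lam lam2 e Zs : ℝ} {z : E}

/-- The shift vector. -/
theorem L1_X (p : ι → ℝ) (p' : κ → ℝ) (x y lam : ℝ) {D : ℝ}
    (hD : |lam| / 2 * ((∑ i, |p i|) + ∑ k, |p' k|) ≤ D) :
    |lam / 2| * L1 (Sum.elim (fun i => p i * x) (fun k => p' k * y)) ≤ D * (|x| + |y|) := by
  have x0 := abs_nonneg x
  have y0 := abs_nonneg y
  have e1 : |lam / 2| = |lam| / 2 := by rw [abs_div, abs_two]
  have e2 : L1 (Sum.elim (fun i => p i * x) (fun k => p' k * y)) ≤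
      ((∑ i, |p i|) + ∑ k, |p' k|) * (|x| + |y|) := by
    unfold L1
    simp only [Fintype.sum_sum_type, Sum.elim_inl, Sum.elim_inr, abs_mul]
    rw [← Finset.sum_mul, ← Finset.sum_mul]
    have p1 : 0 ≤ ∑ i, |p i| := Finset.sum_nonneg fun _ _ => abs_nonneg _
    have p2 : 0 ≤ ∑ i, |p' i| := Finset.sum_nonneg fun _ _ => abs_nonneg _
    nlinarith [mul_nonneg p1 y0, mul_nonneg p2 x0]
  rw [e1]
  calc |lam| / 2 * L1 (Sum.elim (fun i => p i * x) (fun k => p' k * y)) ≤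
      |lam| / 2 * (((∑ i, |p i|) + ∑ k, |p' k|) * (|x| + |y|)) :=
      mul_le_mul_of_nonneg_left e2 (by positivity)
    _ = |lam| / 2 * ((∑ i, |p i|) + ∑ k, |p' k|) * (|x| + |y|) := by ring
    _ ≤ _ := mul_le_mul_of_nonneg_right hD (by positivity)

theorem Fz.hhb (h : Fz σ τ v₁ v₂ W c c' p p' g lam lam2 e Zs z) (x y : ℝ) (j : ι ⊕ κ) :
    |hh σ τ W x y z j - lam * g * ((∑ i, nn σ p z i * p i) * x + (∑ i, nn τ p' z i * p' i) * y) *
      Sum.elim (nn σ p z) (nn τ p' z) j| ≤ e * (|x| + |y|) := by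
  rcases j with j | j
  · refine le_trans (le_of_eq ?_) (tri (x := x) (y := y) (h.txx j) (h.txy j))
    simp only [hh, Sum.elim_inl]
    congr 1
    ring
  · refine le_trans (le_of_eq ?_) (tri (x := x) (y := y) (h.tyx j) (h.tyy j))
    simp only [hh, Sum.elim_inr]
    congr 1
    ring

theorem Fz.KKb (h : Fz σ τ v₁ v₂ W c c' p p' g lam lam2 e Zs z) (i j : ι ⊕ κ) :
    |KK σ τ W c c' z i j - g * Sum.elim (nn σ p z) (nn τ p' z) i *
      Sum.elim (nn σ p z) (nn τ p' z) j| ≤ e := by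
  rcases i with i | i <;> rcases j with j | j
  · exact h.xx i j
  · exact h.xy i j
  · have := h.xy j i
    rw [mul_right_comm] at this
    exact this
  · exact h.yy i j

theorem Fz.f4b (h : Fz σ τ v₁ v₂ W c c' p p' g lam lam2 e Zs z) (x y : ℝ) :
    |2 * (σ.Λ (σ.Λ W) z * x ^ 2 + 2 * (σ.Λ (τ.Λ W) z * (x * y)) + τ.Λ (τ.Λ W) z * y ^ 2) -
      2 * lam2 * g * ((∑ i, nn σ p z i * p i) * x + (∑ i, nn τ p' z i * p' i) * y) ^ 2| ≤
      2 * e * (|x| + |y|) ^ 2 := by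
  refine le_trans (le_of_eq ?_) (quad4 (x := x) (y := y) h.qxx h.qxy h.qyy)
  congr 1
  ring

/-- The shifted inequality before the zero order terms. -/
theorem Fz.key [Nonempty ι] (h : Fz σ τ v₁ v₂ W c c' p p' g lam lam2 e Zs z)
    {m Kc D : ℝ} (hm : 0 ≤ m) (he : e ≤ Kc * m)
    (hD : |lam| / 2 * ((∑ i, |p i|) + ∑ k, |p' k|) ≤ D)
    (cert : ∀ A B, 2 * (m * ((∑ i, A i ^ 2) + ∑ k, B k ^ 2)) ≤
      Ch.TH σ τ W z A B + tc σ c W z A + tc τ c' W z B) (A : ι → ℝ) (B : κ → ℝ) (x y : ℝ) :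
    8 * (m * ((∑ i, A i ^ 2) + ∑ k, B k ^ 2)) -
      m * ((Fintype.card ι + Fintype.card κ : ℝ) * (Kc * (16 * D + 8)) ^ 2 / 16 +
      Kc * (8 * D ^ 2 + 8 * D + 2) + 24 * D ^ 2) * (|x| + |y|) ^ 2 -
      2 * Zs * (|x| + |y|) ^ 2 ≤
    8 * (Ch.TH σ τ W z A B + tc σ c W z A + tc τ c' W z B) -
      8 * (x * gA σ (σ.Λ W) z A + y * gA σ (τ.Λ W) z A + x * gA τ (σ.Λ W) z B +
        y * gA τ (τ.Λ W) z B) +
      2 * (σ.Λ (σ.Λ W) z * x ^ 2 + 2 * (σ.Λ (τ.Λ W) z * (x * y)) + τ.Λ (τ.Λ W) z * y ^ 2) := by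
  have hZs : 0 ≤ Zs := (abs_nonneg _).trans h.gx
  have hD0 : 0 ≤ D := le_trans (mul_nonneg (by positivity) (add_nonneg
    (Finset.sum_nonneg fun _ _ => abs_nonneg _) (Finset.sum_nonneg fun _ _ => abs_nonneg _))) hD
  have hz : 2 * (g * (lam ^ 2 - lam2)) *
      ((∑ i, nn σ p z i * p i) * x + (∑ i, nn τ p' z i * p' i) * y) ^ 2 ≤
      2 * Zs * (|x| + |y|) ^ 2 := by
    have := sq_wsum (a := x) (b := y) h.lx h.ly h.sx h.sy hZs
    linarith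
  have hs : ∑ j, Sum.elim (nn σ p z) (nn τ p' z) j *
      Sum.elim (fun i => p i * x) (fun k => p' k * y) j =
      (∑ i, nn σ p z i * p i) * x + (∑ i, nn τ p' z i * p' i) * y := by
    simp only [Fintype.sum_sum_type, Sum.elim_inl, Sum.elim_inr]
    rw [Finset.sum_mul, Finset.sum_mul]
    congr 1 <;> exact Finset.sum_congr rfl fun j _ => by ring
  have hc : ∀ Y : ι ⊕ κ → ℝ, 2 * (m * ∑ j, Y j ^ 2) ≤
      ∑ i, ∑ j, KK σ τ W c c' z i j * Y i * Y j := by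
    intro Y
    rw [KK_eq]
    have := cert (fun i => Y (.inl i)) (fun k => Y (.inr k))
    simpa only [Fintype.sum_sum_type] using this
  have key := shift (Z := Sum.elim A B) (t := lam / 2) (by ring) hs h.KKb (h.hhb x y) (h.f4b x y)
    hz hm h.e0 he hD0 (add_nonneg (abs_nonneg x) (abs_nonneg y)) (L1_X p p' x y lam hD) hc
  rw [KK_eq, hh_eq, Fintype.card_sum] at key
  simp only [Fintype.sum_sum_type, Sum.elim_inl, Sum.elim_inr, Nat.cast_add] at key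
  exact key

/-- **The pointwise total form of zone A in the far zone.** -/
theorem Fz.tot [Nonempty ι] (h : Fz σ τ v₁ v₂ W c c' p p' g lam lam2 e Zs z)
    {m Kc D η F0 : ℝ} (hm : 0 ≤ m) (he : e ≤ Kc * m) (hη : 0 ≤ η)
    (hD : |lam| / 2 * ((∑ i, |p i|) + ∑ k, |p' k|) ≤ D)
    (hF1 : F0 ≤ σ.F W z) (hF2 : F0 ≤ τ.F W z)
    (hC : 2 * (m * ((Fintype.card ι + Fintype.card κ : ℝ) * (Kc * (16 * D + 8)) ^ 2 / 16 +
      Kc * (8 * D ^ 2 + 8 * D + 2) + 24 * D ^ 2) + 14 * Zs) ≤ η * (m * F0))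
    (cert : ∀ A B, 2 * (m * ((∑ i, A i ^ 2) + ∑ k, B k ^ 2)) ≤
      Ch.TH σ τ W z A B + tc σ c W z A + tc τ c' W z B) (A : ι → ℝ) (B : κ → ℝ) (x y : ℝ) :
    8 * (m * ((∑ i, A i ^ 2) + ∑ k, B k ^ 2)) -
      η * (m * σ.F W z * x ^ 2 + m * τ.F W z * y ^ 2) ≤
    8 * (Ch.TH σ τ W z A B + tc σ c W z A + tc τ c' W z B) + qf σ τ v₁ v₂ W z A B x y := by
  have hD0 : 0 ≤ D := le_trans (mul_nonneg (by positivity) (add_nonneg
    (Finset.sum_nonneg fun _ _ => abs_nonneg _) (Finset.sum_nonneg fun _ _ => abs_nonneg _))) hD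
  have C0 : 0 ≤ m * ((Fintype.card ι + Fintype.card κ : ℝ) * (Kc * (16 * D + 8)) ^ 2 / 16 +
      Kc * (8 * D ^ 2 + 8 * D + 2) + 24 * D ^ 2) := by
    have h1 : 0 ≤ Kc * m := h.e0.trans he
    have q1 : 0 ≤ m * ((Fintype.card ι + Fintype.card κ : ℝ) * (Kc * (16 * D + 8)) ^ 2 / 16) := by
      positivity
    have q2 : 0 ≤ (Kc * m) * (8 * D ^ 2 + 8 * D + 2) := mul_nonneg h1 (by positivity)
    have q3 : 0 ≤ m * (24 * D ^ 2) := by positivity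
    linarith
  exact zero_alg hm hη C0 hF1 hF2 hC h.gx h.gy h.m2 h.vx h.vy (h.key hm he hD cert A B x y)

end tot

end Vale.Agent.P088.R2.H657.W
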