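import Vale.Agent.P088.R2.H657.W.Bo
import Vale.Agent.P088.R2.H657.W.Shift

/-!
# P088: the data of the shift for `W = W₀ + Ψ(φ, r)`, uniformly over families

The slope part `W₀` has `D W₀ = O(N)`, `D^j W₀ = O(e₀)`, `j = 2, 3, 4`; the profile `Ψ` has the
rank one structure `D_ij = H_k ω^j + O(G/r)`, `i + j = k = 2, 3, 4`.
-/

open Set Filter
open scoped ContDiff Topology

noncomputable section

namespace Vale.Agent.P088.R2.H657.W

open Vale.Agent.P088.R2.H644.Sy Vale.Agent.P088.R2.H961.GW Vale.Agent.P088.R2.H644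
  Vale.Agent.P088.R2.H960.W Vale.Agent.P088.R2.H747.S

variable {α E ι κ : Type*} [NormedAddCommGroup E] [NormedSpace ℝ E] [Fintype ι] [Fintype κ]

/-- One slot and the weight. -/
structure Fs1 (σ : α → Sl E ι) (e : ι → E) (U : α → Set E) (r Rs : α → E → ℝ) : Prop where
  fs : FS σ e U Rs 4
  ok : ∀ a, ∃ θ, (σ a).Ok (U a) θ
  Rs0 : ∀ a, ∀ z ∈ U a, 0 < Rs a z
  r0 : ∀ a, ∀ z ∈ U a, 0 < r a z
  rR : ∃ A, ∀ a, ∀ z ∈ U a, r a z ≤ A * Rs a z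
  R1 : ∃ c > 0, ∀ a, ∀ z ∈ U a, c ≤ Rs a z

/-- The weight. -/
structure Wt (U : α → Set E) (φ r G Nn eu Rs : α → E → ℝ) (D : α → ℕ → ℕ → ℝ → ℝ → ℝ)
    (Wu : α → E → ℝ) : Prop where
  fc : Fc U φ r G D 1
  N0 : ∀ a, ∀ z ∈ U a, 0 ≤ Nn a z
  eu0 : ∀ a, ∀ z ∈ U a, 0 ≤ eu a z
  u1 : ∀ v, So U Nn 3 fun a => dd v (Wu a)
  u2 : ∀ v w, So U eu 2 fun a => dd v (dd w (Wu a))
  Ne : ∃ A, ∀ a, ∀ z ∈ U a, Nn a z * (Rs a z)⁻¹ ≤ A * eu a z
  su : ∀ a, ContDiffOn ℝ ∞ (Wu a) (U a)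

/-- The size of the errors. -/
def E0 (r G eu : α → E → ℝ) (a : α) (z : E) : ℝ := rG r G a z + eu a z

/-- The weight function. -/
def Ww (D : α → ℕ → ℕ → ℝ → ℝ → ℝ) (φ r Wu : α → E → ℝ) (a : α) (z : E) : ℝ :=
  Wu a z + Fd D φ r 0 0 a z

section one

variable {U : α → Set E} {φ r G Nn eu Rs g : α → E → ℝ} {D : α → ℕ → ℕ → ℝ → ℝ → ℝ}
  {Wu : α → E → ℝ} {σ : α → Sl E ι} {e : ι → E} {τ : α → Sl E κ} {e' : κ → E}

namespace Fs1

theorem xc (s : Fs1 σ e U r Rs) (h : Fc U φ r G D 1) (i j : ι) : Xc U r 3 (sc σ i j) := by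
  obtain ⟨A, hA⟩ := s.rR
  have h1 : Sf U r (fun _ _ => 1) 4 (fun a => (σ a).s i j) :=
    (s.fs.ss i j).mono_ρ s.Rs0 s.r0 (fun _ _ _ => zero_le_one) hA
  exact h.xc_of h1

/-- The derivatives of the coefficients are `O(1/Rs)`. -/
theorem sd (s : Fs1 σ e U r Rs) (hU : ∀ a, IsOpen (U a)) (i j : ι) (t : E) :
    So U (fun a z => (Rs a z)⁻¹) 3 fun a => dd t (sc σ i j a) := by
  obtain ⟨c, hc, hR⟩ := s.R1
  have h1 := ((s.fs.ss i j).fd hU).clm hU (ContinuousLinearMap.apply ℝ ℝ t)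
  have h2 : Sf U Rs (fun a z => (Rs a z)⁻¹) 3 fun a => dd t (sc σ i j a) :=
    (h1.congr hU fun a z _ => rfl).wcongr fun a z _ => by simp
  refine h2.mono_ρ s.Rs0 (fun _ _ _ => one_pos) (fun a z hz => inv_nonneg.2 (s.Rs0 a z hz).le)
    (A := c⁻¹) fun a z hz => ?_
  rw [← div_eq_inv_mul, one_le_div₀ hc]
  exact hR a z hz

theorem s1 (s : Fs1 σ e U r Rs) (h : Fc U φ r G D 1) (i j : ι) :
    So U (fun _ _ => 1) 4 (sc σ i j) := (s.xc h i j).s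

theorem sb (s : Fs1 σ e U r Rs) (h : Fc U φ r G D 1) (i j : ι) :
    Bo U (fun _ _ => 1) (sc σ i j) := (s.s1 h i j).bo fun _ _ _ => zero_le_one

theorem db (s : Fs1 σ e U r Rs) (hU : ∀ a, IsOpen (U a)) (i j : ι) (t : E) :
    Bo U (fun a z => (Rs a z)⁻¹) fun a => dd t (sc σ i j a) :=
  (s.sd hU i j t).bo fun a z hz => inv_nonneg.2 (s.Rs0 a z hz).le

end Fs1

namespace Wt

variable (w : Wt U φ r G Nn eu Rs D Wu)

include w

theorem rG0 {a : α} {z : E} (hz : z ∈ U a) : 0 ≤ rG r G a z :=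
  mul_nonneg (w.fc.G0 a z hz).le (inv_nonneg.2 (w.fc.rp hz).le)

theorem E00 : ∀ a, ∀ z ∈ U a, 0 ≤ E0 r G eu a z := fun a z hz =>
  add_nonneg (w.rG0 hz) (w.eu0 a z hz)

theorem ofG {x : α → E → ℝ} {l : ℕ} (h : So U (rG r G) l x) : Bo U (E0 r G eu) x :=
  (h.bo fun a z hz => w.rG0 hz).le1 (fun a z hz => le_add_of_nonneg_right (w.eu0 a z hz)) w.E00

theorem ofG' {x : α → E → ℝ} (h : Bo U (rG r G) x) : Bo U (E0 r G eu) x :=
  h.le1 (fun a z hz => le_add_of_nonneg_right (w.eu0 a z hz)) w.E00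

theorem ofu {x : α → E → ℝ} {l : ℕ} (h : So U eu l x) : Bo U (E0 r G eu) x :=
  (h.bo w.eu0).le1 (fun a z hz => le_add_of_nonneg_left (w.rG0 hz)) w.E00

theorem sW (a : α) : ContDiffOn ℝ ∞ (Ww D φ r Wu a) (U a) := (w.su a).add (w.fc.sD a 0 0)

/-- First derivatives. -/
theorem d1 (v : E) {a : α} {z : E} (hz : z ∈ U a) :
    dd v (Ww D φ r Wu a) z = dd v (Wu a) z + dd v (Fd D φ r 0 0 a) z :=
  dd_add v (dfa w.fc.op w.su hz) (dfa w.fc.op (x := Fd D φ r 0 0) (fun a => w.fc.sD a 0 0) hz)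

theorem b1 (v : E) : Bo U (fun a z => Nn a z + G a z) fun a => dd v (Ww D φ r Wu a) := by
  have h1 := ((w.u1 v).bo w.N0).le1 (g₁ := fun a z => Nn a z + G a z)
    (fun a z hz => le_add_of_nonneg_right (w.fc.G0 a z hz).le)
    fun a z hz => add_nonneg (w.N0 a z hz) (w.fc.G0 a z hz).le
  have h2 := ((w.fc.s1 (l := 0) v (by omega)).bo fun a z hz => (w.fc.G0 a z hz).le).le1
    (g₁ := fun a z => Nn a z + G a z) (fun a z hz => le_add_of_nonneg_left (w.N0 a z hz))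
    fun a z hz => add_nonneg (w.N0 a z hz) (w.fc.G0 a z hz).le
  exact (h1.add h2).congr fun a z hz => w.d1 v hz

/-- Second derivatives. -/
theorem d2 (v t : E) {a : α} {z : E} (hz : z ∈ U a) : dd t (dd v (Ww D φ r Wu a)) z =
    dd t (dd v (Wu a)) z + dd t (dd v (Fd D φ r 0 0 a)) z := by
  have e0 : dd t (dd v (Ww D φ r Wu a)) z =
      dd t (fun z => dd v (Wu a) z + dd v (Fd D φ r 0 0 a) z) z :=
    dd_congr w.fc.op (f := fun a => dd v (Ww D φ r Wu a))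
      (f' := fun a z => dd v (Wu a) z + dd v (Fd D φ r 0 0 a) z) t (fun a z hz => w.d1 v hz) hz
  rw [e0]
  exact dd_add t (dfa w.fc.op (x := fun a => dd v (Wu a)) (w.u1 v).sm hz)
    (dfa w.fc.op (x := fun a => dd v (Fd D φ r 0 0 a)) (w.fc.s1 (l := 0) v (by omega)).sm hz)

/-- `∂_t ∂_v W` up to `O(E₀)`. -/
theorem b2 (v t : E) : Bo U (E0 r G eu) fun a z =>
    dd t (dd v (Ww D φ r Wu a)) z - Mn D φ r [t, v] 0 0 a z := by
  have h1 := w.ofG (w.fc.main [t] v 0 (by simp))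
  have h2 := w.ofu (w.u2 t v)
  refine (h1.add h2).congr fun a z hz => ?_
  rw [w.d2 v t hz]
  have e1 : it ([t] ++ [v]) (Fd D φ r 0 0 a) z = dd t (dd v (Fd D φ r 0 0 a)) z := rfl
  have e2 : Mn D φ r ([t] ++ [v]) 0 0 a z = Mn D φ r [t, v] 0 0 a z := rfl
  rw [e1, e2]; ring

/-- The errors `D s D W`. -/
theorem sdw (s : Fs1 σ e U r Rs) : Bo U (E0 r G eu) fun a z => (Nn a z + G a z) * (Rs a z)⁻¹ := by
  obtain ⟨A, hA⟩ := w.Ne
  obtain ⟨B, hB⟩ := s.rR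
  refine ⟨|A| + |B|, by positivity, fun a z hz => ?_⟩
  have h1 := s.Rs0 a z hz
  have h2 := w.fc.rp hz
  have h3 := w.fc.G0 a z hz
  have h4 := w.N0 a z hz
  have h5 : (Rs a z)⁻¹ ≤ |B| * (r a z)⁻¹ := by
    rw [inv_eq_one_div, inv_eq_one_div, mul_one_div, div_le_div_iff₀ h1 h2, one_mul]
    exact (hB a z hz).trans (mul_le_mul_of_nonneg_right (le_abs_self B) h1.le)
  rw [abs_of_nonneg (by positivity)]
  have h6 : G a z * (Rs a z)⁻¹ ≤ |B| * rG r G a z := by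
    calc G a z * (Rs a z)⁻¹ ≤ G a z * (|B| * (r a z)⁻¹) := mul_le_mul_of_nonneg_left h5 h3.le
      _ = _ := by ring
  have h7 : Nn a z * (Rs a z)⁻¹ ≤ |A| * eu a z :=
    (hA a z hz).trans (mul_le_mul_of_nonneg_right (le_abs_self A) (w.eu0 a z hz))
  have h8 := w.rG0 hz
  have h9 := w.eu0 a z hz
  unfold E0
  nlinarith [mul_nonneg (abs_nonneg A) h8, mul_nonneg (abs_nonneg B) h9]

end Wt

end one

end Vale.Agent.P088.R2.H657.W
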