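import Vale.Agent.P088.R2.H657.W.Far

/-!
# P088: third and fourth order traces of `W = W₀ + Ψ(φ, r)` up to `O(G/r + e₀)`
-/

open Set Filter
open scoped ContDiff Topology

noncomputable section

namespace Vale.Agent.P088.R2.H657.W

open Vale.Agent.P088.R2.H644.Sy Vale.Agent.P088.R2.H961.GW Vale.Agent.P088.R2.H644
  Vale.Agent.P088.R2.H960.W Vale.Agent.P088.R2.H747.S

variable {α E ι κ : Type*} [NormedAddCommGroup E] [NormedSpace ℝ E] [Fintype ι] [Fintype κ]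

section lin

variable {U : α → Set E} {s : ι → ι → α → E → ℝ} {e : ι → E} {f g : α → E → ℝ}

theorem sm_dd {O : Set E} (hO : IsOpen O) {f : E → ℝ} (hf : ContDiffOn ℝ ∞ f O) (v : E) :
    ContDiffOn ℝ ∞ (dd v f) O := by
  have h1 : ContDiffOn ℝ ∞ (fderiv ℝ f) O := hf.fderiv_of_isOpen hO (by norm_num)
  exact h1.clm_apply contDiffOn_const

/-- `Λ` is linear. -/
theorem Lb_add (hU : ∀ a, IsOpen (U a)) (hf : ∀ a, ContDiffOn ℝ ∞ (f a) (U a))
    (hg : ∀ a, ContDiffOn ℝ ∞ (g a) (U a)) {a : α} {z : E} (hz : z ∈ U a) :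
    Lb s e (fun a z => f a z + g a z) a z = Lb s e f a z + Lb s e g a z := by
  have c1 : ∀ v, ∀ a, ∀ z ∈ U a, dd v (fun z => f a z + g a z) z = dd v (f a) z + dd v (g a) z :=
    fun v a z hz => dd_add v (dfa hU hf hz) (dfa hU hg hz)
  have c2 : ∀ u v, dd u (dd v (fun z => f a z + g a z)) z =
      dd u (dd v (f a)) z + dd u (dd v (g a)) z := by
    intro u v
    have e0 : dd u (dd v (fun z => f a z + g a z)) z =
        dd u (fun z => dd v (f a) z + dd v (g a) z) z :=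
      dd_congr hU (f := fun a => dd v (fun z => f a z + g a z))
        (f' := fun a z => dd v (f a) z + dd v (g a) z) u (fun a z hz => c1 v a z hz) hz
    rw [e0]
    exact dd_add u (dfa hU (x := fun a => dd v (f a)) (fun a => sm_dd (hU a) (hf a) v) hz)
      (dfa hU (x := fun a => dd v (g a)) (fun a => sm_dd (hU a) (hg a) v) hz)
  unfold Lb Lm Dr
  simp only [c2, c1 _ a z hz, mul_add, Finset.sum_add_distrib]
  ring

/-- `Λ` is local. -/
theorem Lb_congr (hU : ∀ a, IsOpen (U a)) (h : ∀ a, ∀ z ∈ U a, f a z = g a z) {a : α} {z : E}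
    (hz : z ∈ U a) : Lb s e f a z = Lb s e g a z := by
  have c1 : ∀ v, ∀ a, ∀ z ∈ U a, dd v (f a) z = dd v (g a) z := fun v a z hz =>
    dd_congr hU v h hz
  have c2 : ∀ u v, dd u (dd v (f a)) z = dd u (dd v (g a)) z := fun u v =>
    dd_congr hU (f := fun a => dd v (f a)) (f' := fun a => dd v (g a)) u (c1 v) hz
  unfold Lb Lm Dr
  simp only [c2, c1 _ a z hz]

theorem sm_Lb (hU : ∀ a, IsOpen (U a)) (hs : ∀ i j a, ContDiffOn ℝ ∞ (s i j a) (U a))
    (hf : ∀ a, ContDiffOn ℝ ∞ (f a) (U a)) (a : α) : ContDiffOn ℝ ∞ (Lb s e f a) (U a) := by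
  refine ContDiffOn.add (ContDiffOn.sum fun i _ => ContDiffOn.sum fun j _ => ?_)
    (ContDiffOn.sum fun i _ => ContDiffOn.sum fun j _ => ?_)
  · exact (hs i j a).mul (sm_dd (hU a) (sm_dd (hU a) (hf a) (e j)) (e i))
  · exact (sm_dd (hU a) (hs i j a) (e i)).mul (sm_dd (hU a) (hf a) (e j))

end lin

section one

variable {U : α → Set E} {φ r G Nn eu Rs : α → E → ℝ} {D : α → ℕ → ℕ → ℝ → ℝ → ℝ}
  {Wu : α → E → ℝ} {σ : α → Sl E ι} {e : ι → E} {τ : α → Sl E κ} {e' : κ → E}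

namespace Wt

variable (w : Wt U φ r G Nn eu Rs D Wu)

include w

/-- `Λ` of the slope part. -/
theorem LWu (s : Fs1 σ e U r Rs) : So U eu 2 (Lb (sc σ) e Wu) := by
  obtain ⟨A, hA⟩ := w.Ne
  have h1 : So U eu 2 (Lm (sc σ) e Wu) :=
    sLm w.fc.op (fun i j => (s.s1 w.fc i j).mono_k (by omega)) fun i j => w.u2 (e i) (e j)
  have h2 : So U (fun a z => Nn a z * (Rs a z)⁻¹) 2 (Dr (sc σ) e Wu) :=
    sDr w.fc.op (fun i j t => (s.sd w.fc.op i j t).mono_k (by omega)) fun j =>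
      (w.u1 (e j)).mono_k (by omega)
  have h3 : So U eu 2 (Dr (sc σ) e Wu) :=
    So.le h2 (fun a z hz => mul_nonneg (w.N0 a z hz) (inv_nonneg.2 (s.Rs0 a z hz).le)) hA
  exact Sf.add w.fc.op h1 h3

/-- `Λ` of the weight, split. -/
theorem LW (s : Fs1 σ e U r Rs) {a : α} {z : E} (hz : z ∈ U a) :
    (σ a).Λ (Ww D φ r Wu a) z = Lb (sc σ) e Wu a z + Lb (sc σ) e (Fd D φ r 0 0) a z := by
  rw [FS.Lb_eq s.fs]
  exact Lb_add w.fc.op w.su (fun a => w.fc.sD a 0 0) hz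

/-- `∂_t Λ W`. -/
theorem T3 (s : Fs1 σ e U r Rs) (t : E) : Bo U (E0 r G eu) fun a z =>
    dd t ((σ a).Λ (Ww D φ r Wu a)) z -
      ∑ i, ∑ j, sc σ i j a z * Mn D φ r [t, e i, e j] 0 0 a z := by
  have h1 := w.LWu s
  have h2 : So U G 1 (Lb (sc σ) e (Fd D φ r 0 0)) :=
    w.fc.sL (fun i j => (s.xc w.fc i j).mono_k (by omega)) (by omega)
  have h3 := w.fc.T3' (l := 0) (fun i j => (s.xc w.fc i j).mono_k (by omega)) (by omega) t
    (e := e)
  have h4 := w.ofu (So.dd w.fc.op (k := 1) h1 t)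
  have h5 := w.ofG h3
  refine (h4.add h5).congr fun a z hz => ?_
  have e0 : dd t ((σ a).Λ (Ww D φ r Wu a)) z = dd t (fun z => Lb (sc σ) e Wu a z +
      Lb (sc σ) e (Fd D φ r 0 0) a z) z :=
    dd_congr w.fc.op (f := fun a => (σ a).Λ (Ww D φ r Wu a))
      (f' := fun a z => Lb (sc σ) e Wu a z + Lb (sc σ) e (Fd D φ r 0 0) a z) t
      (fun a z hz => w.LW s hz) hz
  rw [e0, dd_add t (dfa w.fc.op h1.sm hz) (dfa w.fc.op h2.sm hz)]
  ring

/-- `Λ' Λ W`. -/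
theorem T4 (s : Fs1 σ e U r Rs) (s' : Fs1 τ e' U r Rs) : Bo U (E0 r G eu) fun a z =>
    (τ a).Λ ((σ a).Λ (Ww D φ r Wu a)) z - ∑ m, ∑ p, sc τ m p a z * ∑ i, ∑ j, sc σ i j a z *
        Mn D φ r [e' m, e' p, e i, e j] 0 0 a z := by
  have hU := w.fc.op
  have h1 := w.LWu s
  have h3 := w.fc.T4' (l := 0) (e := e) (e' := e')
    (fun i j => (s.xc w.fc i j).mono_k (by omega : 0 + 2 ≤ 3))
    (fun i j => (s'.xc w.fc i j).mono_k (by omega : 0 + 2 ≤ 3)) (by omega)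
  have h4 : So U eu 0 (Lm (sc τ) e' (Lb (sc σ) e Wu)) :=
    sLm hU (fun i j => (s'.s1 w.fc i j).mono_k (by omega)) fun i j =>
      So.dd hU (So.dd hU (k := 1) h1 (e' j)) (e' i)
  have h5 : So U (rG r eu) 0 (Dr (sc τ) e' (Lb (sc σ) e Wu)) :=
    sDr hU (fun i j t => ((s'.xc w.fc i j).d t).mono_k (by omega)) fun j =>
      (So.dd hU (k := 1) h1 (e' j)).mono_k (by omega)
  have h6 : Bo U (E0 r G eu) (Dr (sc τ) e' (Lb (sc σ) e Wu)) := by
    obtain ⟨c, hc, hr⟩ := w.fc.r0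
    have q1 := h5.bo fun a z hz => mul_nonneg (w.eu0 a z hz) (inv_nonneg.2 (w.fc.rp hz).le)
    have q2 : Bo U eu (Dr (sc τ) e' (Lb (sc σ) e Wu)) := q1.le (A := c⁻¹) (fun a z hz => by
      have e0 : rG r eu a z = (r a z)⁻¹ * eu a z := mul_comm _ _
      rw [e0]
      exact mul_le_mul_of_nonneg_right (inv_anti₀ hc (hr a z hz)) (w.eu0 a z hz)) w.eu0
    exact q2.le1 (fun a z hz => le_add_of_nonneg_left (w.rG0 hz)) w.E00
  refine (((w.ofu h4).add h6).add (w.ofG h3)).congr fun a z hz => ?_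
  have e1 : (τ a).Λ ((σ a).Λ (Ww D φ r Wu a)) z =
      Lb (sc τ) e' (fun a => (σ a).Λ (Ww D φ r Wu a)) a z :=
    FS.Lb_eq s'.fs (fun a => (σ a).Λ (Ww D φ r Wu a)) a z
  have e2 := Lb_congr (s := sc τ) (e := e') hU (f := fun a => (σ a).Λ (Ww D φ r Wu a))
    (g := fun a z => Lb (sc σ) e Wu a z + Lb (sc σ) e (Fd D φ r 0 0) a z)
    (fun a z hz => w.LW s hz) hz
  have hs : ∀ i j a, ContDiffOn ℝ ∞ (sc σ i j a) (U a) := fun i j a => (s.s1 w.fc i j).sm a
  have e6 := Lb_add (s := sc τ) (e := e') (f := Lb (sc σ) e Wu)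
    (g := Lb (sc σ) e (Fd D φ r 0 0)) hU (fun a => h1.sm a)
    (fun a => sm_Lb (s := sc σ) (e := e) (f := Fd D φ r 0 0) hU hs (fun a => w.fc.sD a 0 0) a) hz
  have e3 : Lb (sc τ) e' (Lb (sc σ) e Wu) a z = Lm (sc τ) e' (Lb (sc σ) e Wu) a z +
    Dr (sc τ) e' (Lb (sc σ) e Wu) a z := rfl
  rw [e1, e2, e6, e3]
  ring

end Wt

end one

/-! ## The rank one structure -/

/-- The covector `m = dφ + ω dr`. -/
def mv (φ r w : α → E → ℝ) (v : E) (a : α) (z : E) : ℝ :=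
  dd v (φ a) z + w a z * dd v (r a) z

/-- The rank one structure of the profile. -/
structure Rk (U : α → Set E) (φ r G : α → E → ℝ) (D : α → ℕ → ℕ → ℝ → ℝ → ℝ)
    (g w lam lam2 : α → E → ℝ) : Prop where
  w1 : Bo U (fun _ _ => 1) w
  r2 : ∀ p q, p + q = 2 → Bo U (rG r G) fun a z => Fd D φ r p q a z - g a z * w a z ^ q
  r3 : ∀ p q, p + q = 3 →
    Bo U (rG r G) fun a z => Fd D φ r p q a z - lam a z * g a z * w a z ^ q
  r4 : ∀ p q, p + q = 4 →
    Bo U (rG r G) fun a z => Fd D φ r p q a z - lam2 a z * g a z * w a z ^ q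

section rank

variable {U : α → Set E} {φ r G Nn eu Rs g w lam lam2 : α → E → ℝ}
  {D : α → ℕ → ℕ → ℝ → ℝ → ℝ} {Wu : α → E → ℝ} {σ : α → Sl E ι} {e : ι → E}
  {τ : α → Sl E κ} {e' : κ → E}

theorem Fc.bφ (h : Fc U φ r G D 1) (v : E) : Bo U (fun _ _ => 1) fun a => dd v (φ a) :=
  (h.xφ v).s.bo fun _ _ _ => zero_le_one

theorem Fc.br (h : Fc U φ r G D 1) (v : E) : Bo U (fun _ _ => 1) fun a => dd v (r a) :=
  (h.xr v).s.bo fun _ _ _ => zero_le_one

theorem mv_bo (h : Fc U φ r G D 1) (hw : Bo U (fun _ _ => 1) w) (v : E) :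
    Bo U (fun _ _ => 1) (mv φ r w v) := (h.bφ v).add (hw.mul1 (h.br v))

theorem Pb_bo (h : Fc U φ r G D 1) (vs : List E) :
    Bo U (fun _ _ => 1) fun a z => Pb φ r a z vs := by
  induction vs with
  | nil => exact Bo.const 1
  | cons v vs ih =>
    have h1 : Bo U (fun _ _ => 1) fun a z => |dd v (φ a) z| + |dd v (r a) z| := by
      obtain ⟨C, h0, hC⟩ := h.bφ v
      obtain ⟨C', h0', hC'⟩ := h.br v
      refine ⟨C + C', add_nonneg h0 h0', fun a z hz => ?_⟩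
      rw [abs_of_nonneg (by positivity), add_mul]
      exact add_le_add (hC a z hz) (hC' a z hz)
    exact h1.mul1 ih

/-- The rank one values of the main parts. -/
theorem Mn_bo (h : Fc U φ r G D 1) {H : α → E → ℝ} (vs : List E)
    (hH : ∀ p q, p + q = vs.length →
      Bo U (rG r G) fun a z => Fd D φ r p q a z - H a z * w a z ^ q) :
    Bo U (rG r G) fun a z => Mn D φ r vs 0 0 a z - H a z * Pm φ r (w a z) a z vs := by
  have g0 : ∀ a, ∀ z ∈ U a, 0 ≤ rG r G a z := fun a z hz =>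
    mul_nonneg (h.G0 a z hz).le (inv_nonneg.2 (h.rp hz).le)
  obtain ⟨C, C0, hC⟩ := Bo.all (J := Fin (vs.length + 1))
    (x := fun q a z => Fd D φ r (vs.length - q) q a z - H a z * w a z ^ (q : ℕ))
    (fun q => hH _ _ (by have := q.2; omega)) g0
  obtain ⟨B, B0, hB⟩ := Pb_bo h vs
  refine ⟨C * B, mul_nonneg C0 B0, fun a z hz => ?_⟩
  have h1 := Mn_rank (D := D) (φ := φ) (r := r) (a := a) (z := z) (H := H a z) (w := w a z)
    (e := C * rG r G a z) vs 0 0 (fun p q hpq => by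
      have hq : q < vs.length + 1 := by omega
      have e1 := hC ⟨q, hq⟩ a z hz
      have e2 : vs.length - q = p := by omega
      simpa only [e2] using e1)
  rw [pow_zero, mul_one] at h1
  refine h1.trans ?_
  have h2 := hB a z hz
  rw [mul_one] at h2
  calc C * rG r G a z * Pb φ r a z vs ≤ C * rG r G a z * B :=
      mul_le_mul_of_nonneg_left ((le_abs_self _).trans h2) (mul_nonneg C0 (g0 a z hz))
    _ = _ := by ring

end rank

end Vale.Agent.P088.R2.H657.W
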