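import Vale.Agent.P088.R2.H657.W.Far2

/-!
# P088: the data of the shift for `W = W₀ + Ψ(φ, r)`
-/

open Set Filter
open scoped ContDiff Topology

noncomputable section

namespace Vale.Agent.P088.R2.H657.W

open Vale.Agent.P088.R2.H644.Sy Vale.Agent.P088.R2.H961.GW Vale.Agent.P088.R2.H644
  Vale.Agent.P088.R2.H960.W Vale.Agent.P088.R2.H747.S

variable {α E ι κ μ : Type*} [NormedAddCommGroup E] [NormedSpace ℝ E] [Fintype ι] [Fintype κ]
  [Fintype μ]

/-- The components of `m = dφ + ω dr` in a slot. -/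
def pv (φ r w : α → E → ℝ) (e : ι → E) (a : α) (z : E) (i : ι) : ℝ := mv φ r w (e i) a z

/-- `|m|²` in a slot. -/
def Qs (σ : α → Sl E ι) (φ r w : α → E → ℝ) (e : ι → E) (a : α) (z : E) : ℝ :=
  ∑ i, nn (σ a) (pv φ r w e a z) z i * pv φ r w e a z i

section rank

variable {U : α → Set E} {φ r G Nn eu Rs g om lam lam2 : α → E → ℝ}
  {D : α → ℕ → ℕ → ℝ → ℝ → ℝ} {Wu : α → E → ℝ} {σ : α → Sl E ι} {e : ι → E}
  {τ : α → Sl E κ} {e' : κ → E} {υ : α → Sl E μ} {f : μ → E}

theorem Qs_eq (a : α) (z : E) : Qs σ φ r om e a z =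
    ∑ i, ∑ j, sc σ i j a z * (mv φ r om (e i) a z * mv φ r om (e j) a z) := by
  unfold Qs nn pv sc
  simp only [Finset.sum_mul]
  rw [Finset.sum_comm]
  exact Finset.sum_congr rfl fun i _ => Finset.sum_congr rfl fun j _ => by ring

namespace Wt

variable (w : Wt U φ r G Nn eu Rs D Wu)

include w

theorem mvb (rk : Rk U φ r G D g om lam lam2) (v : E) : Bo U (fun _ _ => 1) (mv φ r om v) :=
  mv_bo w.fc rk.w1 v

theorem nnb (s : Fs1 σ e U r Rs) (rk : Rk U φ r G D g om lam lam2) (j : ι) :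
    Bo U (fun _ _ => 1) fun a z => nn (σ a) (pv φ r om e a z) z j := by
  unfold nn pv
  exact Bo.sum _ fun i _ => (s.sb w.fc i j).mul1 (w.mvb rk (e i))

theorem Qb (s : Fs1 σ e U r Rs) (rk : Rk U φ r G D g om lam lam2) :
    Bo U (fun _ _ => 1) (Qs σ φ r om e) :=
  Bo.sum _ fun i _ => (w.nnb s rk i).mul1 (w.mvb rk (e i))

/-- `∂_t Λ W = λ g |m|² m_t + O(E₀)`. -/
theorem T3e (s : Fs1 υ f U r Rs) (rk : Rk U φ r G D g om lam lam2) (t : E) :
    Bo U (E0 r G eu) fun a z => dd t ((υ a).Λ (Ww D φ r Wu a)) z -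
      lam a z * g a z * Qs υ φ r om f a z * mv φ r om t a z := by
  have h1 := w.T3 s t
  have h2 : Bo U (E0 r G eu) fun a z => ∑ i, ∑ j, sc υ i j a z *
      (Mn D φ r [t, f i, f j] 0 0 a z -
        lam a z * g a z * Pm φ r (om a z) a z [t, f i, f j]) := by
    refine Bo.sum _ fun i _ => Bo.sum _ fun j _ => (s.sb w.fc i j).mul1 (w.ofG' ?_)
    exact Mn_bo w.fc (H := fun a z => lam a z * g a z) [t, f i, f j]
      fun p q hpq => rk.r3 p q (by simpa using hpq)
  refine (h1.add h2).congr fun a z _ => ?_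
  rw [Qs_eq]
  have e1 : ∀ i j, Pm φ r (om a z) a z [t, f i, f j] =
      mv φ r om t a z * (mv φ r om (f i) a z * mv φ r om (f j) a z) := by
    intro i j
    simp only [Pm, mv]
    ring
  simp only [e1, mul_sub, Finset.sum_sub_distrib]
  have e2 : ∑ i, ∑ j, sc υ i j a z * (lam a z * g a z * (mv φ r om t a z *
      (mv φ r om (f i) a z * mv φ r om (f j) a z))) =
      lam a z * g a z * (∑ i, ∑ j, sc υ i j a z *
        (mv φ r om (f i) a z * mv φ r om (f j) a z)) * mv φ r om t a z := by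
    simp only [Finset.mul_sum, Finset.sum_mul]
    exact Finset.sum_congr rfl fun i _ => Finset.sum_congr rfl fun j _ => by ring
  rw [e2]
  ring

/-- The third order traces in a slot. -/
theorem T3s (s : Fs1 σ e U r Rs) (s' : Fs1 υ f U r Rs) (rk : Rk U φ r G D g om lam lam2) (j : ι) :
    Bo U (E0 r G eu) fun a z =>
      (∑ i, (σ a).s i j z * (σ a).D i ((υ a).Λ (Ww D φ r Wu a)) z) -
      lam a z * g a z * Qs υ φ r om f a z * nn (σ a) (pv φ r om e a z) z j := by
  have h1 : Bo U (E0 r G eu) fun a z => ∑ i, sc σ i j a z *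
      (dd (e i) ((υ a).Λ (Ww D φ r Wu a)) z -
        lam a z * g a z * Qs υ φ r om f a z * mv φ r om (e i) a z) :=
    Bo.sum _ fun i _ => (s.sb w.fc i j).mul1 (w.T3e s' rk (e i))
  refine h1.congr fun a z _ => ?_
  have e1 : ∀ i, (σ a).D i ((υ a).Λ (Ww D φ r Wu a)) z =
      dd (e i) ((υ a).Λ (Ww D φ r Wu a)) z := fun i => by rw [FS.dd_eq s.fs]
  unfold nn pv sc
  simp only [e1, mul_sub, Finset.sum_sub_distrib, Finset.mul_sum]
  congr 1
  exact Finset.sum_congr rfl fun i _ => by ring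

/-- The fourth order traces. -/
theorem T4e (s : Fs1 σ e U r Rs) (s' : Fs1 υ f U r Rs) (rk : Rk U φ r G D g om lam lam2) :
    Bo U (E0 r G eu) fun a z => (υ a).Λ ((σ a).Λ (Ww D φ r Wu a)) z -
      lam2 a z * g a z * (Qs υ φ r om f a z * Qs σ φ r om e a z) := by
  have h1 := w.T4 s s'
  have h2 : Bo U (E0 r G eu) fun a z => ∑ m, ∑ p, sc υ m p a z * ∑ i, ∑ j, sc σ i j a z *
      (Mn D φ r [f m, f p, e i, e j] 0 0 a z -
        lam2 a z * g a z * Pm φ r (om a z) a z [f m, f p, e i, e j]) := by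
    refine Bo.sum _ fun m _ => Bo.sum _ fun p _ => (s'.sb w.fc m p).mul1 ?_
    refine Bo.sum _ fun i _ => Bo.sum _ fun j _ => (s.sb w.fc i j).mul1 (w.ofG' ?_)
    exact Mn_bo w.fc (H := fun a z => lam2 a z * g a z) [f m, f p, e i, e j]
      fun p q hpq => rk.r4 p q (by simpa using hpq)
  refine (h1.add h2).congr fun a z _ => ?_
  rw [Qs_eq, Qs_eq]
  have e1 : ∀ m p i j, Pm φ r (om a z) a z [f m, f p, e i, e j] =
      (mv φ r om (f m) a z * mv φ r om (f p) a z) *
        (mv φ r om (e i) a z * mv φ r om (e j) a z) := by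
    intro m p i j
    simp only [Pm, mv]
    ring
  simp only [e1, mul_sub, Finset.sum_sub_distrib]
  have e2 : ∑ m, ∑ p, sc υ m p a z * ∑ i, ∑ j, sc σ i j a z * (lam2 a z * g a z *
      ((mv φ r om (f m) a z * mv φ r om (f p) a z) *
        (mv φ r om (e i) a z * mv φ r om (e j) a z))) =
      lam2 a z * g a z * ((∑ i, ∑ j, sc υ i j a z *
        (mv φ r om (f i) a z * mv φ r om (f j) a z)) * ∑ i, ∑ j, sc σ i j a z *
        (mv φ r om (e i) a z * mv φ r om (e j) a z)) := by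
    have e3 : ∀ m p, ∑ i, ∑ j, sc σ i j a z * (lam2 a z * g a z *
        ((mv φ r om (f m) a z * mv φ r om (f p) a z) *
          (mv φ r om (e i) a z * mv φ r om (e j) a z))) =
        lam2 a z * g a z * (mv φ r om (f m) a z * mv φ r om (f p) a z) *
          ∑ i, ∑ j, sc σ i j a z * (mv φ r om (e i) a z * mv φ r om (e j) a z) := by
      intro m p
      simp only [Finset.mul_sum]
      exact Finset.sum_congr rfl fun i _ => Finset.sum_congr rfl fun j _ => by ring
    simp only [e3]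
    generalize (∑ i, ∑ j, sc σ i j a z * (mv φ r om (e i) a z * mv φ r om (e j) a z)) = Q
    simp only [Finset.mul_sum, Finset.sum_mul]
    exact Finset.sum_congr rfl fun m _ => Finset.sum_congr rfl fun p _ => by ring
  rw [e2]
  ring

/-- Second derivatives of the weight, rank one. -/
theorem b2e (rk : Rk U φ r G D g om lam lam2) (t v : E) : Bo U (E0 r G eu) fun a z =>
    dd t (dd v (Ww D φ r Wu a)) z - g a z * (mv φ r om t a z * mv φ r om v a z) := by
  have h1 := w.b2 v t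
  have h2 : Bo U (E0 r G eu) fun a z => Mn D φ r [t, v] 0 0 a z -
      g a z * Pm φ r (om a z) a z [t, v] :=
    w.ofG' (Mn_bo w.fc (H := g) [t, v] fun p q hpq => rk.r2 p q (by simpa using hpq))
  refine (h1.add h2).congr fun a z _ => ?_
  have e1 : Pm φ r (om a z) a z [t, v] = mv φ r om t a z * mv φ r om v a z := by
    simp only [Pm, mv]; ring
  rw [e1]; ring

/-- The size of the second derivatives. -/
theorem b2s (rk : Rk U φ r G D g om lam lam2) (t v : E) :
    Bo U (fun a z => |g a z| + E0 r G eu a z) fun a => dd t (dd v (Ww D φ r Wu a)) := by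
  have h1 := (w.b2e rk t v).le1 (g₁ := fun a z => |g a z| + E0 r G eu a z)
    (fun a z hz => le_add_of_nonneg_left (abs_nonneg _))
    fun a z hz => add_nonneg (abs_nonneg _) (w.E00 a z hz)
  have h2 : Bo U (fun a z => |g a z| + E0 r G eu a z) fun a z =>
      g a z * (mv φ r om t a z * mv φ r om v a z) := by
    obtain ⟨C, h0, hC⟩ := (w.mvb rk t).mul1 (w.mvb rk v)
    refine ⟨C, h0, fun a z hz => ?_⟩
    have h3 := hC a z hz
    rw [mul_one] at h3
    rw [abs_mul]
    have h4 := w.E00 a z hz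
    calc |g a z| * |mv φ r om t a z * mv φ r om v a z| ≤ |g a z| * C :=
        mul_le_mul_of_nonneg_left h3 (abs_nonneg _)
      _ ≤ C * (|g a z| + E0 r G eu a z) := by nlinarith
  exact (h1.add h2).congr fun a z _ => by ring

/-- The mixed tensor. -/
theorem mce (s : Fs1 σ e U r Rs) (s' : Fs1 υ f U r Rs) (rk : Rk U φ r G D g om lam lam2)
    (sy : ∀ a i j z, (σ a).s i j z = (σ a).s j i z) (sy' : ∀ a i j z, (υ a).s i j z = (υ a).s j i z)
    (i : ι) (k : μ) : Bo U (E0 r G eu) fun a z => Ch.Mc (σ a) (υ a) (Ww D φ r Wu a) i k z -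
      g a z * nn (σ a) (pv φ r om e a z) z i * nn (υ a) (pv φ r om f a z) z k := by
  have h1 : Bo U (E0 r G eu) fun a z => ∑ j, ∑ l, sc σ i j a z * (sc υ k l a z *
      (dd (e j) (dd (f l) (Ww D φ r Wu a)) z -
        g a z * (mv φ r om (e j) a z * mv φ r om (f l) a z))) :=
    Bo.sum _ fun j _ => Bo.sum _ fun l _ => (s.sb w.fc i j).mul1
      ((s'.sb w.fc k l).mul1 (w.b2e rk (e j) (f l)))
  refine h1.congr fun a z _ => ?_
  have e1 : ∀ j l, (σ a).D j ((υ a).D l (Ww D φ r Wu a)) z =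
      dd (e j) (dd (f l) (Ww D φ r Wu a)) z := fun j l => by
    rw [FS.dd_eq s'.fs, FS.dd_eq s.fs]
  unfold Ch.Mc nn pv sc
  simp only [e1]
  have e2 : g a z * (∑ x, (σ a).s x i z * mv φ r om (e x) a z) *
      ∑ x, (υ a).s x k z * mv φ r om (f x) a z = ∑ j, ∑ l, (σ a).s i j z * ((υ a).s k l z *
        (g a z * (mv φ r om (e j) a z * mv φ r om (f l) a z))) := by
    rw [mul_assoc, Finset.sum_mul_sum, Finset.mul_sum]
    refine Finset.sum_congr rfl fun j _ => ?_
    rw [Finset.mul_sum]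
    refine Finset.sum_congr rfl fun l _ => ?_
    rw [sy a j i, sy' a l k]; ring
  rw [e2]
  simp only [← Finset.sum_sub_distrib]
  exact Finset.sum_congr rfl fun j _ => Finset.sum_congr rfl fun l _ => by ring

/-- The Hessian of one slot. -/
theorem hce (s : Fs1 σ e U r Rs) (rk : Rk U φ r G D g om lam lam2)
    (sy : ∀ a i j z, (σ a).s i j z = (σ a).s j i z)
    (i l : ι) : Bo U (E0 r G eu) fun a z => (σ a).Hc (Ww D φ r Wu a) i l z -
      g a z * nn (σ a) (pv φ r om e a z) z i * nn (σ a) (pv φ r om e a z) z l := by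
  have h1 := w.mce s s rk sy sy i l
  -- the terms with `D s`
  have q : ∀ v t i j k l, Bo U (E0 r G eu) fun a z => sc σ i j a z *
      (dd v (Ww D φ r Wu a) z * dd t (sc σ k l a) z) := by
    intro v t i j k l
    refine (s.sb w.fc i j).mul1 ?_
    have h3 := (w.b1 v).mul (s.db w.fc.op k l t)
    obtain ⟨C, h0, hC⟩ := h3
    obtain ⟨C', h0', hC'⟩ := w.sdw s
    refine ⟨C * C', mul_nonneg h0 h0', fun a z hz => (hC a z hz).trans ?_⟩
    rw [mul_assoc]
    exact mul_le_mul_of_nonneg_left ((le_abs_self _).trans (hC' a z hz)) h0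
  have h2 : Bo U (E0 r G eu) fun a z => ∑ j, ∑ k, 1 / 2 * (sc σ i j a z *
      (dd (e k) (Ww D φ r Wu a) z * dd (e j) (sc σ k l a) z) + sc σ l j a z *
      (dd (e k) (Ww D φ r Wu a) z * dd (e j) (sc σ k i a) z) - sc σ j k a z *
      (dd (e j) (Ww D φ r Wu a) z * dd (e k) (sc σ i l a) z)) :=
    Bo.sum _ fun j _ => Bo.sum _ fun k _ => (((q (e k) (e j) i j k l).add
      (q (e k) (e j) l j k i)).sub (q (e j) (e k) j k i l)).cmul (1 / 2)
  refine (h1.add h2).congr fun a z hz => ?_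
  have hη : ∀ j, (σ a).η j z = 0 := fun j => by
    have : (σ a).ρ = fun _ => 1 := funext (s.fs.one a)
    simp [Sl.η, this]
  have hc : ∀ j k, (σ a).D k ((σ a).D j (Ww D φ r Wu a)) z =
      (σ a).D j ((σ a).D k (Ww D φ r Wu a)) z := fun j k =>
    Ch.DD_comm (w.fc.op a) (s.fs.one a) (w.sW a) k j hz
  have hd : ∀ t k l, (σ a).D t ((σ a).s k l) z = dd (e t) (sc σ k l a) z := fun t k l => by
    rw [FS.dd_eq s.fs]
  have hd1 : ∀ t, (σ a).D t (Ww D φ r Wu a) z = dd (e t) (Ww D φ r Wu a) z := fun t => by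
    rw [FS.dd_eq s.fs]
  have e3 : (σ a).Hc (Ww D φ r Wu a) i l z = Ch.Mc (σ a) (σ a) (Ww D φ r Wu a) i l z +
      ∑ j, ∑ k, 1 / 2 * (sc σ i j a z *
      (dd (e k) (Ww D φ r Wu a) z * dd (e j) (sc σ k l a) z) + sc σ l j a z *
      (dd (e k) (Ww D φ r Wu a) z * dd (e j) (sc σ k i a) z) - sc σ j k a z *
      (dd (e j) (Ww D φ r Wu a) z * dd (e k) (sc σ i l a) z)) := by
    unfold Sl.Hc Ch.Mc
    simp only [hη, hc, hd, hd1]
    rw [Finset.mul_sum, ← Finset.sum_add_distrib]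
    refine Finset.sum_congr rfl fun j _ => ?_
    rw [Finset.mul_sum, ← Finset.sum_add_distrib]
    refine Finset.sum_congr rfl fun k _ => ?_
    rw [sy a l k]
    unfold sc
    ring
  rw [e3]
  ring

end Wt

end rank

end Vale.Agent.P088.R2.H657.W
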