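import Vale.Agent.P088.R2.H657.W.Far3

/-!
# P088: the data of the shift: zero order terms and the assembly
-/

open Set Filter
open scoped ContDiff Topology

noncomputable section

namespace Vale.Agent.P088.R2.H657.W

open Vale.Agent.P088.R2.H644.Sy Vale.Agent.P088.R2.H961.GW Vale.Agent.P088.R2.H644
  Vale.Agent.P088.R2.H960.W Vale.Agent.P088.R2.H747.S

variable {α E ι κ : Type*} [NormedAddCommGroup E] [NormedSpace ℝ E] [Fintype ι] [Fintype κ]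

section rank

variable {U : α → Set E} {φ r G Nn eu Rs g om lam lam2 V cv : α → E → ℝ}
  {D : α → ℕ → ℕ → ℝ → ℝ → ℝ} {Wu : α → E → ℝ} {σ : α → Sl E ι} {e : ι → E}
  {τ : α → Sl E κ} {e' : κ → E}

/-- The size of the zero order terms. -/
def Z0 (r G Nn eu g V cv : α → E → ℝ) (a : α) (z : E) : ℝ :=
  (|g a z| + E0 r G eu a z) ^ 2 + (Nn a z + G a z) * V a z + cv a z

namespace Fs1

/-- The second derivatives of the coefficients are `O(Rs⁻²)`. -/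
theorem ddb (s : Fs1 σ e U r Rs) (hU : ∀ a, IsOpen (U a)) (i j : ι) (t u : E) :
    Bo U (fun a z => (Rs a z)⁻¹ * (Rs a z)⁻¹) fun a => dd u (dd t (sc σ i j a)) := by
  have h1 := ((s.fs.ss i j).fd hU).clm hU (ContinuousLinearMap.apply ℝ ℝ t)
  have h2 : Sf U Rs (fun a z => (Rs a z)⁻¹) 3 fun a => dd t (sc σ i j a) :=
    (h1.congr hU fun a z _ => rfl).wcongr fun a z _ => by simp
  have h3 := (h2.fd hU).clm hU (ContinuousLinearMap.apply ℝ ℝ u)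
  have h4 : Sf U Rs (fun a z => (Rs a z)⁻¹ * (Rs a z)⁻¹) 2 fun a => dd u (dd t (sc σ i j a)) :=
    (h3.congr hU fun a z _ => rfl).wcongr fun a z _ => by simp
  obtain ⟨C, hC⟩ := h4.bd 0 (Nat.zero_le _)
  refine ⟨|C|, abs_nonneg C, fun a z hz => ?_⟩
  have h5 := hC a z hz
  simp only [norm_iteratedFDeriv_zero, pow_zero, mul_one, Real.norm_eq_abs] at h5
  have h6 := (s.Rs0 a z hz).le
  exact h5.trans (mul_le_mul_of_nonneg_right (le_abs_self C) (by positivity))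

end Fs1

namespace Wt

variable (w : Wt U φ r G Nn eu Rs D Wu)

include w

/-- `Γ₂(W, W)`. -/
theorem g2b (s : Fs1 σ e U r Rs) (rk : Rk U φ r G D g om lam lam2) :
    Bo U (fun a z => (|g a z| + E0 r G eu a z) ^ 2) fun a => Ch.G2 (σ a) (Ww D φ r Wu a) := by
  have hU := w.fc.op
  obtain ⟨S, S0, hS⟩ := Bo.all (J := ι × ι) (x := fun p a z => sc σ p.1 p.2 a z)
    (fun p => s.sb w.fc p.1 p.2) fun _ _ _ => zero_le_one
  obtain ⟨A, A0, hA⟩ := Bo.all (J := ι × ι × ι) (x := fun p a z => dd (e p.1) (sc σ p.2.1 p.2.2 a) z)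
    (fun p => s.db hU p.2.1 p.2.2 (e p.1)) fun a z hz => inv_nonneg.2 (s.Rs0 a z hz).le
  obtain ⟨B, B0, hB⟩ := Bo.all (J := ι × ι × ι × ι)
    (x := fun p a z => dd (e p.1) (dd (e p.2.1) (sc σ p.2.2.1 p.2.2.2 a)) z)
    (fun p => s.ddb hU p.2.2.1 p.2.2.2 (e p.2.1) (e p.1)) fun a z hz => by
      have := inv_nonneg.2 (s.Rs0 a z hz).le
      positivity
  obtain ⟨C1, C10, hC1⟩ := Bo.all (J := ι) (x := fun i a z => dd (e i) (Ww D φ r Wu a) z)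
    (fun i => w.b1 (e i)) fun a z hz => add_nonneg (w.N0 a z hz) (w.fc.G0 a z hz).le
  obtain ⟨C2, C20, hC2⟩ := Bo.all (J := ι × ι)
    (x := fun p a z => dd (e p.1) (dd (e p.2) (Ww D φ r Wu a)) z)
    (fun p => w.b2s rk (e p.1) (e p.2)) fun a z hz => add_nonneg (abs_nonneg _) (w.E00 a z hz)
  obtain ⟨K, K0, hK⟩ := w.sdw s
  refine ⟨Fintype.card ι ^ 4 * (S ^ 2 * C2 ^ 2 + 3 * (S * A * C1 * K * C2) +
    1 / 2 * (S * B * C1 ^ 2 * K ^ 2) + (1 / 2 * (A ^ 2 * C1 ^ 2 * K ^ 2) +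
      S * B * C1 ^ 2 * K ^ 2)), by positivity, fun a z hz => ?_⟩
  obtain ⟨θ, ok⟩ := s.ok a
  set R1 : ℝ := (Rs a z)⁻¹ with hR1
  set NG : ℝ := Nn a z + G a z with hNG
  set X : ℝ := |g a z| + E0 r G eu a z with hX
  have r0 : 0 ≤ R1 := inv_nonneg.2 (s.Rs0 a z hz).le
  have n0 : 0 ≤ NG := add_nonneg (w.N0 a z hz) (w.fc.G0 a z hz).le
  have e0 : 0 ≤ E0 r G eu a z := w.E00 a z hz
  have x0 : 0 ≤ X := add_nonneg (abs_nonneg _) e0
  have kk : NG * R1 ≤ K * X := by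
    have h1 := (le_abs_self _).trans (hK a z hz)
    have h2 : K * E0 r G eu a z ≤ K * X :=
      mul_le_mul_of_nonneg_left (by rw [hX]; linarith [abs_nonneg (g a z)]) K0
    exact h1.trans h2
  have main := Ch.G2_bd ok (s.fs.one a) (s.fs.k0 a) (w.sW a) hz (S := S) (δ₁ := A * R1)
    (δ₂ := B * (R1 * R1)) (w₁ := C1 * NG) (w₂ := C2 * X)
    (fun i j => by simpa using hS (i, j) a z hz)
    (fun l i j => by rw [FS.dd_eq s.fs]; exact hA (l, i, j) a z hz)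
    (fun l k i j => by rw [FS.dd_eq s.fs, FS.dd_eq s.fs]; exact hB (l, k, i, j) a z hz)
    (fun i => by rw [FS.dd_eq s.fs]; exact hC1 i a z hz)
    (fun i j => by rw [FS.dd_eq s.fs, FS.dd_eq s.fs]; exact hC2 (i, j) a z hz)
  refine main.trans ?_
  have a1 : S * (A * R1) * (C1 * NG) * (C2 * X) ≤ S * A * C1 * K * C2 * X ^ 2 := by
    calc S * (A * R1) * (C1 * NG) * (C2 * X) = (S * A * C1 * C2 * X) * (NG * R1) := by ring
      _ ≤ (S * A * C1 * C2 * X) * (K * X) := mul_le_mul_of_nonneg_left kk (by positivity)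
      _ = _ := by ring
  have a2 : S * (B * (R1 * R1)) * (C1 * NG) ^ 2 ≤ S * B * C1 ^ 2 * K ^ 2 * X ^ 2 := by
    calc S * (B * (R1 * R1)) * (C1 * NG) ^ 2 = (S * B * C1 ^ 2) * (NG * R1) ^ 2 := by ring
      _ ≤ (S * B * C1 ^ 2) * (K * X) ^ 2 := mul_le_mul_of_nonneg_left
          (pow_le_pow_left₀ (by positivity) kk 2) (by positivity)
      _ = _ := by ring
  have a3 : S ^ 2 * (C2 * X) ^ 2 = S ^ 2 * C2 ^ 2 * X ^ 2 := by ring
  have a4 : (A * R1) ^ 2 * (C1 * NG) ^ 2 ≤ A ^ 2 * C1 ^ 2 * K ^ 2 * X ^ 2 := by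
    calc (A * R1) ^ 2 * (C1 * NG) ^ 2 = (A ^ 2 * C1 ^ 2) * (NG * R1) ^ 2 := by ring
      _ ≤ (A ^ 2 * C1 ^ 2) * (K * X) ^ 2 := mul_le_mul_of_nonneg_left
          (pow_le_pow_left₀ (by positivity) kk 2) (by positivity)
      _ = _ := by ring
  have n4 : (0 : ℝ) ≤ (Fintype.card ι : ℝ) ^ 4 := by positivity
  rw [a3]
  calc (Fintype.card ι : ℝ) ^ 4 * (S ^ 2 * C2 ^ 2 * X ^ 2 +
      3 * (S * (A * R1) * (C1 * NG) * (C2 * X)) + 1 / 2 * (S * (B * (R1 * R1)) * (C1 * NG) ^ 2)) +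
      (Fintype.card ι : ℝ) ^ 4 * (1 / 2 * (A * R1) ^ 2 * (C1 * NG) ^ 2 +
        S * (B * (R1 * R1)) * (C1 * NG) ^ 2) =
      (Fintype.card ι : ℝ) ^ 4 * (S ^ 2 * C2 ^ 2 * X ^ 2 +
      3 * (S * (A * R1) * (C1 * NG) * (C2 * X)) + 1 / 2 * (S * (B * (R1 * R1)) * (C1 * NG) ^ 2) +
      (1 / 2 * ((A * R1) ^ 2 * (C1 * NG) ^ 2) + S * (B * (R1 * R1)) * (C1 * NG) ^ 2)) := by ring
    _ ≤ (Fintype.card ι : ℝ) ^ 4 * ((S ^ 2 * C2 ^ 2 + 3 * (S * A * C1 * K * C2) +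
        1 / 2 * (S * B * C1 ^ 2 * K ^ 2) + (1 / 2 * (A ^ 2 * C1 ^ 2 * K ^ 2) +
          S * B * C1 ^ 2 * K ^ 2)) * X ^ 2) := by
        refine mul_le_mul_of_nonneg_left ?_ n4
        linarith
    _ = _ := by ring

/-- The mixed square. -/
theorem m2b (s : Fs1 σ e U r Rs) (s' : Fs1 τ e' U r Rs) (rk : Rk U φ r G D g om lam lam2) :
    Bo U (fun a z => (|g a z| + E0 r G eu a z) ^ 2) fun a z =>
      M2 (σ a) (τ a) (Ww D φ r Wu a) (Ww D φ r Wu a) z := by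
  obtain ⟨S, S0, hS⟩ := Bo.all (J := ι × ι) (x := fun p a z => sc σ p.1 p.2 a z)
    (fun p => s.sb w.fc p.1 p.2) fun _ _ _ => zero_le_one
  obtain ⟨S', S0', hS'⟩ := Bo.all (J := κ × κ) (x := fun p a z => sc τ p.1 p.2 a z)
    (fun p => s'.sb w.fc p.1 p.2) fun _ _ _ => zero_le_one
  obtain ⟨C2, C20, hC2⟩ := Bo.all (J := ι × κ)
    (x := fun p a z => dd (e p.1) (dd (e' p.2) (Ww D φ r Wu a)) z)
    (fun p => w.b2s rk (e p.1) (e' p.2)) fun a z hz => add_nonneg (abs_nonneg _) (w.E00 a z hz)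
  refine ⟨Fintype.card κ ^ 2 * (Fintype.card ι ^ 2 * (S' * S * C2 ^ 2)), by positivity,
    fun a z hz => ?_⟩
  have main := Ch.M2_bd (σ := σ a) (τ := τ a) (W := Ww D φ r Wu a) (z := z) (S := S) (S' := S')
    (w := C2 * (|g a z| + E0 r G eu a z)) (fun i j => by simpa using hS (i, j) a z hz)
    (fun i j => by simpa using hS' (i, j) a z hz)
    (fun i k => by rw [FS.dd_eq s'.fs, FS.dd_eq s.fs]; exact hC2 (i, k) a z hz)
  refine main.trans (le_of_eq ?_)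
  ring

/-- `Γ(W, v)`. -/
theorem gvb (s : Fs1 σ e U r Rs) {v : α → E → ℝ} (hv : ∀ i, Bo U V fun a => dd (e i) (v a)) :
    Bo U (fun a z => (Nn a z + G a z) * V a z) fun a z => (σ a).Γ (Ww D φ r Wu a) (v a) z := by
  have h1 : Bo U (fun a z => (Nn a z + G a z) * V a z) fun a z => ∑ i, ∑ j,
      sc σ i j a z * (dd (e i) (Ww D φ r Wu a) z * dd (e j) (v a) z) :=
    Bo.sum _ fun i _ => Bo.sum _ fun j _ => (s.sb w.fc i j).mul1 ((w.b1 (e i)).mul (hv j))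
  refine h1.congr fun a z _ => ?_
  unfold Sl.Γ sc
  simp only [FS.dd_eq s.fs]
  exact Finset.sum_congr rfl fun i _ => Finset.sum_congr rfl fun j _ => by ring

/-- Positivity of `|m|²`. -/
theorem Qnn {a : α} {z : E} (hp : ∀ A : ι → ℝ, 0 ≤ ∑ i, ∑ j, (σ a).s i j z * A i * A j) :
    0 ≤ Qs σ φ r om e a z := by
  rw [Qs_eq]
  have := hp (pv φ r om e a z)
  refine this.trans (le_of_eq ?_)
  unfold pv sc
  exact Finset.sum_congr rfl fun i _ => Finset.sum_congr rfl fun j _ => by ring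

/-- **The data of the shift for the family.** -/
theorem fz (s : Fs1 σ e U r Rs) (s' : Fs1 τ e' U r Rs) (rk : Rk U φ r G D g om lam lam2)
    (hp : ∀ a, ∀ z ∈ U a, ∀ A : ι → ℝ, 0 ≤ ∑ i, ∑ j, (σ a).s i j z * A i * A j)
    (hp' : ∀ a, ∀ z ∈ U a, ∀ A : κ → ℝ, 0 ≤ ∑ i, ∑ j, (τ a).s i j z * A i * A j)
    {c : α → ι → E → ℝ} {c' : α → κ → E → ℝ} {v₁ v₂ : α → E → ℝ}
    (hc : ∀ i l, Bo U (E0 r G eu) fun a z => qC (σ a) (c a) (Ww D φ r Wu a) i l z)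
    (hc' : ∀ i l, Bo U (E0 r G eu) fun a z => qC (τ a) (c' a) (Ww D φ r Wu a) i l z)
    (hv1 : ∀ i, Bo U V fun a => dd (e i) (v₁ a)) (hv2 : ∀ i, Bo U V fun a => dd (e' i) (v₂ a))
    (V0 : ∀ a, ∀ z ∈ U a, 0 ≤ V a z) (c0 : ∀ a, ∀ z ∈ U a, 0 ≤ cv a z)
    (hcv : ∀ a, ∀ z ∈ U a, g a z * (lam a z ^ 2 - lam2 a z) ≤ cv a z) :
    ∃ C, 0 ≤ C ∧ ∀ a, ∀ z ∈ U a, Fz (σ a) (τ a) (v₁ a) (v₂ a) (Ww D φ r Wu a) (c a) (c' a)
      (pv φ r om e a z) (pv φ r om e' a z) (g a z) (lam a z) (lam2 a z)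
      (C * E0 r G eu a z) (C * Z0 r G Nn eu g V cv a z) z := by
  have sy : ∀ a i j z, (σ a).s i j z = (σ a).s j i z := fun a => by
    obtain ⟨θ, ok⟩ := s.ok a; exact ok.sy
  have sy' : ∀ a i j z, (τ a).s i j z = (τ a).s j i z := fun a => by
    obtain ⟨θ, ok⟩ := s'.ok a; exact ok.sy
  have z1 : ∀ a, ∀ z ∈ U a, (|g a z| + E0 r G eu a z) ^ 2 ≤ Z0 r G Nn eu g V cv a z := by
    intro a z hz
    have h1 := mul_nonneg (add_nonneg (w.N0 a z hz) (w.fc.G0 a z hz).le) (V0 a z hz)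
    have h2 := c0 a z hz
    unfold Z0; linarith
  have z2 : ∀ a, ∀ z ∈ U a, (Nn a z + G a z) * V a z ≤ Z0 r G Nn eu g V cv a z := by
    intro a z hz
    have h1 := sq_nonneg (|g a z| + E0 r G eu a z)
    have h2 := c0 a z hz
    unfold Z0; linarith
  have z3 : ∀ a, ∀ z ∈ U a, cv a z ≤ Z0 r G Nn eu g V cv a z := by
    intro a z hz
    have h1 := sq_nonneg (|g a z| + E0 r G eu a z)
    have h2 := mul_nonneg (add_nonneg (w.N0 a z hz) (w.fc.G0 a z hz).le) (V0 a z hz)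
    unfold Z0; linarith
  have z0 : ∀ a, ∀ z ∈ U a, 0 ≤ Z0 r G Nn eu g V cv a z := fun a z hz =>
    (sq_nonneg _).trans (z1 a z hz)
  obtain ⟨K1, k1, b1⟩ := Bo.all (J := ι × ι) (fun p => (w.hce s rk sy p.1 p.2).add (hc p.1 p.2))
    w.E00
  obtain ⟨K2, k2, b2⟩ := Bo.all (J := ι × κ) (fun p => w.mce s s' rk sy sy' p.1 p.2) w.E00
  obtain ⟨K3, k3, b3⟩ := Bo.all (J := κ × κ) (fun p => (w.hce s' rk sy' p.1 p.2).add (hc' p.1 p.2))
    w.E00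
  obtain ⟨K4, k4, b4⟩ := Bo.all (J := ι) (fun j => w.T3s s s rk j) w.E00
  obtain ⟨K5, k5, b5⟩ := Bo.all (J := ι) (fun j => w.T3s s s' rk j) w.E00
  obtain ⟨K6, k6, b6⟩ := Bo.all (J := κ) (fun j => w.T3s s' s rk j) w.E00
  obtain ⟨K7, k7, b7⟩ := Bo.all (J := κ) (fun j => w.T3s s' s' rk j) w.E00
  obtain ⟨K8, k8, b8⟩ := w.T4e s s rk
  obtain ⟨K9, k9, b9⟩ := w.T4e s' s rk
  obtain ⟨K10, k10, b10⟩ := w.T4e s' s' rk
  obtain ⟨L1', l1, d1⟩ := (w.g2b s rk).le1 z1 z0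
  obtain ⟨L2', l2, d2⟩ := (w.g2b s' rk).le1 z1 z0
  obtain ⟨L3', l3, d3⟩ := (w.m2b s s' rk).le1 z1 z0
  obtain ⟨L4', l4, d4⟩ := (w.gvb s hv1).le1 z2 z0
  obtain ⟨L5', l5, d5⟩ := (w.gvb s' hv2).le1 z2 z0
  obtain ⟨Q1, q1, f1⟩ := w.Qb s rk
  obtain ⟨Q2, q2, f2⟩ := w.Qb s' rk
  set C : ℝ := K1 + K2 + K3 + K4 + K5 + K6 + K7 + K8 + K9 + K10 + L1' + L2' + L3' + L4' + L5' +
    Q1 ^ 2 + Q2 ^ 2 with hC
  have q1' : 0 ≤ Q1 ^ 2 := by positivity
  have q2' : 0 ≤ Q2 ^ 2 := by positivity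
  refine ⟨C, by positivity, fun a z hz => ?_⟩
  have e0 := w.E00 a z hz
  have zz := z0 a z hz
  have up : ∀ {K x : ℝ}, |x| ≤ K * E0 r G eu a z → K ≤ C → |x| ≤ C * E0 r G eu a z :=
    fun h hK => h.trans (mul_le_mul_of_nonneg_right hK e0)
  have uz : ∀ {K x : ℝ}, |x| ≤ K * Z0 r G Nn eu g V cv a z → K ≤ C →
      |x| ≤ C * Z0 r G Nn eu g V cv a z := fun h hK => h.trans (mul_le_mul_of_nonneg_right hK zz)
  have qn := w.Qnn (om := om) (e := e) (hp a z hz)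
  have qn' := w.Qnn (om := om) (e := e') (hp' a z hz)
  have q3 : ∀ {Q K : ℝ}, 0 ≤ Q → |Q| ≤ K * 1 → K ^ 2 ≤ C →
      g a z * (lam a z ^ 2 - lam2 a z) * Q ^ 2 ≤ C * Z0 r G Nn eu g V cv a z := by
    intro Q K hQ hK hKC
    rw [mul_one, abs_of_nonneg hQ] at hK
    have h1 : Q ^ 2 ≤ K ^ 2 := pow_le_pow_left₀ hQ hK 2
    calc g a z * (lam a z ^ 2 - lam2 a z) * Q ^ 2 ≤ cv a z * Q ^ 2 :=
        mul_le_mul_of_nonneg_right (hcv a z hz) (sq_nonneg Q)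
      _ ≤ cv a z * C := mul_le_mul_of_nonneg_left (h1.trans hKC) (c0 a z hz)
      _ = C * cv a z := mul_comm _ _
      _ ≤ _ := mul_le_mul_of_nonneg_left (z3 a z hz) (by positivity)
  refine ⟨mul_nonneg (by positivity) e0, ?_, ?_, ?_, ?_, ?_, ?_, ?_, ?_, ?_, ?_, ?_, ?_, ?_, ?_, ?_,
    ?_, ?_, qn, qn'⟩
  · intro i l
    have := b1 (i, l) a z hz
    refine up (le_trans (le_of_eq ?_) this) (by rw [hC]; linarith)
    congr 1
    ring
  · intro i k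
    exact up (b2 (i, k) a z hz) (by rw [hC]; linarith)
  · intro i l
    have := b3 (i, l) a z hz
    refine up (le_trans (le_of_eq ?_) this) (by rw [hC]; linarith)
    congr 1
    ring
  · exact fun j => up (b4 j a z hz) (by rw [hC]; linarith)
  · exact fun j => up (b5 j a z hz) (by rw [hC]; linarith)
  · exact fun j => up (b6 j a z hz) (by rw [hC]; linarith)
  · exact fun j => up (b7 j a z hz) (by rw [hC]; linarith)
  · have := b8 a z hz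
    refine up (le_trans (le_of_eq ?_) this) (by rw [hC]; linarith)
    unfold Qs
    congr 1
    ring
  · exact up (b9 a z hz) (by rw [hC]; linarith)
  · have := b10 a z hz
    refine up (le_trans (le_of_eq ?_) this) (by rw [hC]; linarith)
    unfold Qs
    congr 1
    ring
  · exact uz (d1 a z hz) (by rw [hC]; linarith)
  · exact uz (d2 a z hz) (by rw [hC]; linarith)
  · exact uz (d3 a z hz) (by rw [hC]; linarith)
  · exact uz (d4 a z hz) (by rw [hC]; linarith)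
  · exact uz (d5 a z hz) (by rw [hC]; linarith)
  · exact q3 qn (f1 a z hz) (by rw [hC]; linarith)
  · exact q3 qn' (f2 a z hz) (by rw [hC]; linarith)

end Wt

end rank

end Vale.Agent.P088.R2.H657.W
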