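import Vale.Agent.P088.R2.H657.W.Chain2

/-!
# P088: `D Λ F` and `Λ Λ F` for `F = Ψ(φ, r)`, uniformly over families

`Λ f = ∑ s_ij ∂_i ∂_j f` with `s_ij` bounded and `D s_ij = O(1/r)`; up to symbols of size `G / r`
only the derivatives of `F` matter.
-/

open Set Filter
open scoped ContDiff Topology

noncomputable section

namespace Vale.Agent.P088.R2.H657.W

open Vale.Agent.P088.R2.H644.Sy

variable {α E ι κ : Type*} [NormedAddCommGroup E] [NormedSpace ℝ E] [Fintype ι] [Fintype κ]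

/-- The second order operator of one slot. -/
def Lm (s : ι → ι → α → E → ℝ) (e : ι → E) (f : α → E → ℝ) (a : α) (z : E) : ℝ :=
  ∑ i, ∑ j, s i j a z * dd (e i) (dd (e j) (f a)) z

section cal

variable {U : α → Set E} {φ r G : α → E → ℝ} {D : α → ℕ → ℕ → ℝ → ℝ → ℝ} {k l : ℕ}
  {x y f g : α → E → ℝ}

theorem dd_sum {J : Type*} (S : Finset J) {f : J → E → ℝ} {z : E} (v : E)
    (h : ∀ j ∈ S, DifferentiableAt ℝ (f j) z) :
    dd v (fun z => ∑ j ∈ S, f j z) z = ∑ j ∈ S, dd v (f j) z := by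
  have e : HasFDerivAt (fun z => ∑ j ∈ S, f j z) (∑ j ∈ S, fderiv ℝ (f j) z) z :=
    HasFDerivAt.fun_sum fun j hj => (h j hj).hasFDerivAt
  unfold dd
  rw [e.fderiv]
  simp

theorem Xc.mono_k (h : Xc U r k x) (hl : l ≤ k) : Xc U r l x :=
  ⟨h.s.mono_k (Nat.succ_le_succ hl), fun t => (h.d t).mono_k hl⟩

/-- A derivative passes a factor `s` up to `O(G/r)`. -/
theorem Xc.pass (hU : ∀ a, IsOpen (U a)) (h : Xc U r l x) (hf : So U G (l + 1) f)
    (t : E) : So U (fun a z => G a z * (r a z)⁻¹) l fun a z =>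
      dd t (fun z => x a z * f a z) z - x a z * dd t (f a) z := by
  have h1 := (h.d t).mul hU (hf.mono_k (Nat.le_succ l))
  have h2 : So U (fun a z => G a z * (r a z)⁻¹) l _ := h1.wcongr fun a z _ => by ring
  refine h2.congr hU fun a z hz => ?_
  rw [dd_mul t (dfa hU h.s.sm hz) (dfa hU hf.sm hz)]
  ring

variable {s : ι → ι → α → E → ℝ} {e : ι → E} {s' : κ → κ → α → E → ℝ} {e' : κ → E}

/-- `∂_t Λ f = ∑ s_ij ∂_t ∂_i ∂_j f` up to `O(G/r)`, if the second derivatives of `f` are `O(G)`. -/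
theorem dLm (hU : ∀ a, IsOpen (U a)) (hs : ∀ i j, Xc U r l (s i j))
    (hf : ∀ i j, So U G (l + 1) fun a => dd (e i) (dd (e j) (f a))) (t : E) :
    So U (fun a z => G a z * (r a z)⁻¹) l fun a z => dd t (Lm s e f a) z -
      ∑ i, ∑ j, s i j a z * dd t (dd (e i) (dd (e j) (f a))) z := by
  have h1 : So U (fun a z => G a z * (r a z)⁻¹) l fun a z => ∑ i, ∑ j,
      (dd t (fun z => s i j a z * dd (e i) (dd (e j) (f a)) z) z -
        s i j a z * dd t (dd (e i) (dd (e j) (f a))) z) :=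
    Sf.sum hU Finset.univ fun i _ => Sf.sum hU Finset.univ fun j _ => (hs i j).pass hU (hf i j) t
  refine h1.congr hU fun a z hz => ?_
  have d : ∀ i j, DifferentiableAt ℝ (fun z => s i j a z * dd (e i) (dd (e j) (f a)) z) z :=
    fun i j => (dfa hU (hs i j).s.sm hz).mul (dfa hU (hf i j).sm hz)
  have e0 : dd t (Lm s e f a) z =
      ∑ i, ∑ j, dd t (fun z => s i j a z * dd (e i) (dd (e j) (f a)) z) z := by
    have e1 : dd t (Lm s e f a) z = dd t (fun z => ∑ i, ∑ j,
      s i j a z * dd (e i) (dd (e j) (f a)) z) z := rfl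
    rw [e1, dd_sum Finset.univ t fun i _ => ?_]
    · refine Finset.sum_congr rfl fun i _ => ?_
      exact dd_sum Finset.univ t fun j _ => d i j
    · exact DifferentiableAt.fun_sum fun j _ => d i j
  rw [e0]
  simp only [Finset.sum_sub_distrib]

/-- `∂_u ∂_t Λ f`. -/
theorem ddLm (hU : ∀ a, IsOpen (U a)) (hs : ∀ i j, Xc U r (l + 1) (s i j))
    (hf : ∀ i j, So U G (l + 2) fun a => dd (e i) (dd (e j) (f a))) (u t : E) :
    So U (fun a z => G a z * (r a z)⁻¹) l fun a z => dd u (dd t (Lm s e f a)) z -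
      ∑ i, ∑ j, s i j a z * dd u (dd t (dd (e i) (dd (e j) (f a)))) z := by
  have h0 := dLm (l := l + 1) hU hs hf t
  have h1 := h0.dd hU u
  have h2 : So U (fun a z => G a z * (r a z)⁻¹) l fun a z => ∑ i, ∑ j,
      (dd u (fun z => s i j a z * dd t (dd (e i) (dd (e j) (f a))) z) z -
        s i j a z * dd u (dd t (dd (e i) (dd (e j) (f a)))) z) :=
    Sf.sum hU Finset.univ fun i _ => Sf.sum hU Finset.univ fun j _ =>
      ((hs i j).mono_k (Nat.le_succ l)).pass hU (So.dd hU (hf i j) t) u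
  refine (Sf.add hU h1 h2).congr hU fun a z hz => ?_
  have d : ∀ i j, DifferentiableAt ℝ
      (fun z => s i j a z * dd t (dd (e i) (dd (e j) (f a))) z) z := fun i j =>
    (dfa hU (hs i j).s.sm hz).mul (dfa hU (So.dd hU (hf i j) t).sm hz)
  have d2 : DifferentiableAt ℝ (fun z => ∑ i, ∑ j,
      s i j a z * dd t (dd (e i) (dd (e j) (f a))) z) z :=
    DifferentiableAt.fun_sum fun i _ => DifferentiableAt.fun_sum fun j _ => d i j
  have e2 : dd u (fun z => ∑ i, ∑ j, s i j a z * dd t (dd (e i) (dd (e j) (f a))) z) z =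
      ∑ i, ∑ j, dd u (fun z => s i j a z * dd t (dd (e i) (dd (e j) (f a))) z) z := by
    rw [dd_sum Finset.univ u fun i _ => ?_]
    · refine Finset.sum_congr rfl fun i _ => ?_
      exact dd_sum Finset.univ u fun j _ => d i j
    · exact DifferentiableAt.fun_sum fun j _ => d i j
  have d3 : DifferentiableAt ℝ (fun z => dd t (Lm s e f a) z -
      ∑ i, ∑ j, s i j a z * dd t (dd (e i) (dd (e j) (f a))) z) z := dfa hU h0.sm hz
  have d4 : DifferentiableAt ℝ (dd t (Lm s e f a)) z := by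
    have := d3.add d2
    refine this.congr_of_eventuallyEq (Filter.Eventually.of_forall fun w => ?_)
    simp
  rw [dd_sub u d4 d2, e2]
  simp only [Finset.sum_sub_distrib]
  ring

end cal

section main

variable {U : α → Set E} {φ r G : α → E → ℝ} {D : α → ℕ → ℕ → ℝ → ℝ → ℝ} {k l : ℕ}
  {s : ι → ι → α → E → ℝ} {e : ι → E} {s' : κ → κ → α → E → ℝ} {e' : κ → E}

namespace Fc

/-- The iterated derivatives of order at least one are `O(G)`. -/
theorem sit' (h : Fc U φ r G D k) (vs : List E) (v : E) (hl : l + vs.length ≤ k + 2) :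
    So U G l fun a => it (vs ++ [v]) (Fd D φ r 0 0 a) := by
  have h1 := h.main vs v l hl
  have h2 : So U G l fun a z => it (vs ++ [v]) (Fd D φ r 0 0 a) z - Mn D φ r (vs ++ [v]) 0 0 a z := by
    obtain ⟨c, hc, hr⟩ := h.r0
    refine So.le h1 (fun a z hz => mul_nonneg (h.G0 a z hz).le (inv_nonneg.2 (h.rp hz).le))
      (A := c⁻¹) fun a z hz => ?_
    rw [mul_comm]
    exact mul_le_mul_of_nonneg_right (inv_anti₀ hc (hr a z hz)) (h.G0 a z hz).le
  have h3 : So U G l (Mn D φ r (vs ++ [v]) 0 0) := (h.sM (vs ++ [v]) 0 0 (by simp)).mono_k (by omega)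
  exact (Sf.add h.op h2 h3).congr h.op fun a z _ => by ring

/-- **`∂_t Λ F`.** -/
theorem T3 (h : Fc U φ r G D k) (hs : ∀ i j, Xc U r l (s i j)) (hl : l ≤ k) (t : E) :
    So U (fun a z => G a z * (r a z)⁻¹) l fun a z => dd t (Lm s e (Fd D φ r 0 0) a) z -
      ∑ i, ∑ j, s i j a z * Mn D φ r [t, e i, e j] 0 0 a z := by
  have h1 := dLm (f := Fd D φ r 0 0) (G := G) h.op hs (fun i j =>
    h.sit' (l := l + 1) [e i] (e j) (by simp; omega)) t
  have h2 : So U (fun a z => G a z * (r a z)⁻¹) l fun a z => ∑ i, ∑ j, s i j a z *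
      (it ([t, e i] ++ [e j]) (Fd D φ r 0 0 a) z - Mn D φ r ([t, e i] ++ [e j]) 0 0 a z) :=
    Sf.sum h.op Finset.univ fun i _ => Sf.sum h.op Finset.univ fun j _ =>
      (((hs i j).s.mono_k (Nat.le_succ l)).mul h.op
        (h.main [t, e i] (e j) l (by simp; omega))).wcongr fun a z _ => by ring
  refine (Sf.add h.op h1 h2).congr h.op fun a z hz => ?_
  simp only [mul_sub, Finset.sum_sub_distrib]
  have e1 : ∀ i j, it ([t, e i] ++ [e j]) (Fd D φ r 0 0 a) z =
    dd t (dd (e i) (dd (e j) (Fd D φ r 0 0 a))) z := fun i j => rfl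
  have e2 : ∀ i j, Mn D φ r ([t, e i] ++ [e j]) 0 0 a z = Mn D φ r [t, e i, e j] 0 0 a z :=
    fun i j => rfl
  simp only [e1, e2]
  ring

/-- **`Λ' Λ F`.** -/
theorem T4 (h : Fc U φ r G D k) (hs : ∀ i j, Xc U r (l + 1) (s i j))
    (hs' : ∀ i j, Xc U r l (s' i j)) (hl : l + 1 ≤ k) :
    So U (fun a z => G a z * (r a z)⁻¹) l fun a z => Lm s' e' (Lm s e (Fd D φ r 0 0)) a z -
      ∑ m, ∑ p, s' m p a z * ∑ i, ∑ j, s i j a z *
        Mn D φ r [e' m, e' p, e i, e j] 0 0 a z := by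
  have hf : ∀ i j, So U G (l + 2) fun a => dd (e i) (dd (e j) (Fd D φ r 0 0 a)) := fun i j =>
    h.sit' (l := l + 2) [e i] (e j) (by simp; omega)
  have h1 : ∀ m p, So U (fun a z => G a z * (r a z)⁻¹) l fun a z =>
      dd (e' m) (dd (e' p) (Lm s e (Fd D φ r 0 0) a)) z - ∑ i, ∑ j, s i j a z *
        Mn D φ r [e' m, e' p, e i, e j] 0 0 a z := by
    intro m p
    have a1 := ddLm (f := Fd D φ r 0 0) (G := G) h.op hs hf (e' m) (e' p)
    have a2 : So U (fun a z => G a z * (r a z)⁻¹) l fun a z => ∑ i, ∑ j, s i j a z *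
        (it ([e' m, e' p, e i] ++ [e j]) (Fd D φ r 0 0 a) z -
          Mn D φ r ([e' m, e' p, e i] ++ [e j]) 0 0 a z) :=
      Sf.sum h.op Finset.univ fun i _ => Sf.sum h.op Finset.univ fun j _ =>
        (((hs i j).s.mono_k (by omega)).mul h.op
          (h.main [e' m, e' p, e i] (e j) l (by simp; omega))).wcongr fun a z _ => by ring
    refine (Sf.add h.op a1 a2).congr h.op fun a z hz => ?_
    simp only [mul_sub, Finset.sum_sub_distrib]
    have e1 : ∀ i j, it ([e' m, e' p, e i] ++ [e j]) (Fd D φ r 0 0 a) z =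
      dd (e' m) (dd (e' p) (dd (e i) (dd (e j) (Fd D φ r 0 0 a)))) z := fun i j => rfl
    have e2 : ∀ i j, Mn D φ r ([e' m, e' p, e i] ++ [e j]) 0 0 a z =
      Mn D φ r [e' m, e' p, e i, e j] 0 0 a z := fun i j => rfl
    simp only [e1, e2]
    ring
  have h2 : So U (fun a z => G a z * (r a z)⁻¹) l fun a z => ∑ m, ∑ p, s' m p a z *
      (dd (e' m) (dd (e' p) (Lm s e (Fd D φ r 0 0) a)) z - ∑ i, ∑ j, s i j a z *
        Mn D φ r [e' m, e' p, e i, e j] 0 0 a z) :=
    Sf.sum h.op Finset.univ fun m _ => Sf.sum h.op Finset.univ fun p _ =>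
      (((hs' m p).s.mono_k (Nat.le_succ l)).mul h.op (h1 m p)).wcongr fun a z _ => by ring
  refine h2.congr h.op fun a z hz => ?_
  unfold Lm
  simp only [mul_sub, Finset.sum_sub_distrib]

end Fc

end main

end Vale.Agent.P088.R2.H657.W
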